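import Crest.Agent.R330.Defs

/-! # Row 330, L1/A (statements frozen; see `R330/Blueprint.lean`) -/

set_option autoImplicit false
set_option linter.unusedSectionVars false

noncomputable section

open MeasureTheory Filter Topology
open scoped InnerProductSpace ContDiff Matrix
open Crest.MathPhysics.MatrixQM (GammaNine)

namespace Crest.Agent.R330

variable {E F : Type} [NormedAddCommGroup E] [InnerProductSpace ℝ E] [FiniteDimensional ℝ E]
  [MeasurableSpace E] [BorelSpace E]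
  [NormedAddCommGroup F] [InnerProductSpace ℂ F] [FiniteDimensional ℂ F]
  {𝔤 : Lie E} (C : Cl (Th E) F) (σ : Spn)

/-- One-loop energy on the Coulomb branch for the weights `(2ε, 4ε, -2ε, -4ε)`. -/
def Ecoul {N : ℕ} (ε : ℝ) (u : Fin N → ℝ) : ℝ :=
  (1 / 4 * ∑ c, ∑ d, (2 * |u c - u d + 2 * ε| + 2 * |u c - u d - 2 * ε| + 2 * |u c - u d + 4 * ε| +
    2 * |u c - u d - 4 * ε| - 4 * |u c - u d| - |u c - u d + 6 * ε| - |u c - u d - 6 * ε| -
    |u c - u d + 2 * ε| - |u c - u d - 2 * ε|)) - 2 * ε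

/-- The chain `u_c = 4 ((N-1)/2 - c)` (unit `ε = 1`). -/
def chain (N : ℕ) (c : Fin N) : ℝ := 4 * (((N : ℝ) - 1) / 2 - (c : ℕ))

/-- Indicator function of `[a, a + 2)`. -/
def l1aI (a x : ℝ) : ℝ := (Set.Ico a (a + 2)).indicator (1 : ℝ → ℝ) x

/-- The integer valued profile function. -/
def l1aF (w : ℕ → ℝ) (k : ℕ) (x : ℝ) : ℝ := ∑ c ∈ Finset.range k, (l1aI (w c) x - l1aI (w c + 4) x)

theorem l1aI_eq (a b : ℝ) : (fun x => l1aI a x * l1aI b x) =
    (Set.Ico (max a b) (min (a + 2) (b + 2))).indicator 1 := by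
  rw [← Set.Ico_inter_Ico, Set.inter_indicator_one]
  rfl

theorem l1aI_int2 (a b : ℝ) : Integrable fun x => l1aI a x * l1aI b x := by
  rw [l1aI_eq]
  exact (integrable_indicator_iff measurableSet_Ico).2 (integrableOn_const (by simp))

theorem l1aI_mul (a b : ℝ) : ∫ x, l1aI a x * l1aI b x = 2 - min 2 |a - b| := by
  rw [l1aI_eq, integral_indicator_one measurableSet_Ico, Real.volume_real_Ico]
  simp only [max_def, min_def, abs_eq_max_neg]
  split_ifs <;> linarith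

theorem l1aI_one {a x : ℝ} (h : a ≤ x) (h' : x < a + 2) : l1aI a x = 1 := Set.indicator_of_mem (Set.mem_Ico.2 ⟨h, h'⟩) _

theorem l1aI_zero {a x : ℝ} (h : x < a ∨ a + 2 ≤ x) : l1aI a x = 0 :=
  Set.indicator_of_notMem (fun k => by rcases h with h | h <;> linarith [k.1, k.2]) _

theorem l1aI_cases (a x : ℝ) : (a ≤ x ∧ x < a + 2 ∧ l1aI a x = 1) ∨ ((x < a ∨ a + 2 ≤ x) ∧ l1aI a x = 0) := by
  rcases lt_or_ge x a with h | h
  · exact Or.inr ⟨Or.inl h, l1aI_zero (Or.inl h)⟩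
  rcases lt_or_ge x (a + 2) with h' | h'
  · exact Or.inl ⟨h, h', l1aI_one h h'⟩
  · exact Or.inr ⟨Or.inr h', l1aI_zero (Or.inr h')⟩

theorem l1aI_nonneg (a x : ℝ) : 0 ≤ l1aI a x := by
  rcases l1aI_cases a x with h | h <;> simp [h]

theorem l1aI_int (a : ℝ) : Integrable (l1aI a) :=
  (integrable_indicator_iff measurableSet_Ico).2 (integrableOn_const (by simp))

theorem l1aI_integral (a : ℝ) : ∫ x, l1aI a x = 2 :=
  (integral_indicator_one measurableSet_Ico).trans (by rw [Real.volume_real_Ico]; norm_num)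

theorem l1aF_int (w : ℕ → ℝ) (k : ℕ) : Integrable (l1aF w k) :=
  integrable_finsetSum _ fun _ _ => (l1aI_int _).sub' (l1aI_int _)

theorem l1aI_bil (a b c d : ℝ) : Integrable (fun x => (l1aI a x - l1aI b x) * (l1aI c x - l1aI d x)) ∧
    ∫ x, (l1aI a x - l1aI b x) * (l1aI c x - l1aI d x) =
      min 2 |a - d| + min 2 |b - c| - min 2 |a - c| - min 2 |b - d| := by
  simp only [sub_mul, mul_sub]
  have h1 := (l1aI_int2 a c).sub' (l1aI_int2 b c)
  have h2 := (l1aI_int2 a d).sub' (l1aI_int2 b d)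
  refine ⟨h1.sub' h2, ?_⟩
  rw [integral_sub h1 h2, integral_sub (l1aI_int2 _ _) (l1aI_int2 _ _), integral_sub (l1aI_int2 _ _) (l1aI_int2 _ _)]
  simp only [l1aI_mul]
  ring

theorem l1a_min (t : ℝ) : min 2 |t| = 2 + |t| - (|t + 2| + |t - 2|) / 2 := by
  simp only [max_def, min_def, abs_eq_max_neg]
  split_ifs <;> linarith

theorem l1aF_sq {N : ℕ} (w : ℕ → ℝ) : Integrable (fun x => l1aF w N x * l1aF w N x) ∧
    ∫ x, l1aF w N x * l1aF w N x = 2 * Ecoul 1 (fun c : Fin N => w c) + 4 := by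
  simp only [l1aF, Finset.sum_mul_sum]
  have h := fun c => integrable_finsetSum (Finset.range N) fun d _ => (l1aI_bil (w c) (w c + 4) (w d) (w d + 4)).1
  refine ⟨integrable_finsetSum _ fun c _ => h c, ?_⟩
  rw [integral_finsetSum _ fun c _ => h c, Ecoul, mul_sub, Finset.mul_sum, Finset.mul_sum, Finset.sum_range,
    show (2 : ℝ) * (2 * 1) = 4 by norm_num, sub_add_cancel]
  refine Finset.sum_congr rfl fun c _ => ?_
  rw [integral_finsetSum _ fun d _ => (l1aI_bil (w c) (w c + 4) (w d) (w d + 4)).1, Finset.sum_range, Finset.mul_sum,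
    Finset.mul_sum]
  refine Finset.sum_congr rfl fun d _ => ?_
  rw [(l1aI_bil _ _ _ _).2, add_sub_add_right_eq_sub, ← sub_sub, add_sub_right_comm (w c)]
  generalize w c - w d = t
  simp only [l1a_min]
  ring_nf

theorem l1aF_abs (w : ℕ → ℝ) (k : ℕ) (x : ℝ) : |l1aF w k x| ≤ l1aF w k x * l1aF w k x := by
  have h : ∀ a, l1aI a x ∈ (Int.castRingHom ℝ).range := fun a => by
    rcases l1aI_cases a x with h | h
    · rw [h.2.2]; exact one_mem _
    · rw [h.2]; exact zero_mem _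
  obtain ⟨z, hz⟩ : l1aF w k x ∈ (Int.castRingHom ℝ).range := sum_mem fun c _ => sub_mem (h _) (h _)
  have := Int.le_self_sq |z|
  rw [sq_abs, sq] at this
  rw [← hz, eq_intCast]
  exact_mod_cast this

theorem l1aF_lo {w : ℕ → ℝ} {k : ℕ} (hw : ∀ c ≤ k, w k ≤ w c) {x : ℝ} (h : w k ≤ x) (h' : x < w k + 2) :
    1 ≤ l1aF w (k + 1) x := by
  rw [l1aF, Finset.sum_range_succ, l1aI_one h h', l1aI_zero (a := w k + 4) (Or.inl (by linarith)), sub_zero]
  refine le_add_of_nonneg_left (Finset.sum_nonneg fun c hc => ?_)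
  have := hw c (Finset.mem_range.1 hc).le
  rw [l1aI_zero (a := w c + 4) (Or.inl (by linarith)), sub_zero]
  exact l1aI_nonneg _ _

theorem l1aF_hi {w : ℕ → ℝ} {k : ℕ} (hw : ∀ c ≤ k, w c ≤ w 0) {x : ℝ} (h : w 0 + 4 ≤ x) (h' : x < w 0 + 4 + 2) :
    l1aF w (k + 1) x ≤ -1 := by
  rw [l1aF, Finset.sum_range_succ', l1aI_one h h', l1aI_zero (a := w 0) (Or.inr (by linarith)), zero_sub]
  refine add_le_of_nonpos_left (Finset.sum_nonpos fun c hc => ?_)
  have := hw (c + 1) (Finset.mem_range.1 hc)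
  rw [l1aI_zero (a := w (c + 1)) (Or.inr (by linarith)), zero_sub, neg_nonpos]
  exact l1aI_nonneg _ _

theorem l1aF_e {w : ℕ → ℝ} (hw : Antitone w) (k : ℕ) (x : ℝ) :
    |l1aF w (k + 1) x - l1aI (w k) x + l1aI (w 0 + 4) x| = |l1aF w (k + 1) x| - l1aI (w k) x - l1aI (w 0 + 4) x := by
  have h0 := hw (Nat.zero_le k)
  rcases l1aI_cases (w k) x with ⟨a1, a2, a3⟩ | ⟨-, a3⟩
  · have := l1aF_lo (fun c hc => hw hc) a1 a2
    rw [a3, l1aI_zero (Or.inl (by linarith)), abs_of_nonneg (by linarith), abs_of_nonneg (by linarith)]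
    ring
  rcases l1aI_cases (w 0 + 4) x with ⟨b1, b2, b3⟩ | ⟨-, b3⟩
  · have := l1aF_hi (k := k) (w := w) (fun c _ => hw (Nat.zero_le c)) b1 b2
    rw [a3, b3, abs_of_nonpos (by linarith), abs_of_nonpos (by linarith)]
    ring
  · simp [a3, b3]

theorem l1aF_eint {w : ℕ → ℝ} (hw : Antitone w) (k : ℕ) {g : ℝ → ℝ} (hg : Integrable g)
    (h : ∀ x, g x ≤ |l1aF w (k + 1) x - l1aI (w k) x + l1aI (w 0 + 4) x|) :
    ∫ x, g x ≤ (∫ x, |l1aF w (k + 1) x|) - 4 := by
  have h1 := (l1aF_int w (k + 1)).abs.sub' (l1aI_int (w k))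
  refine (integral_mono hg (h1.sub' (l1aI_int (w 0 + 4))) fun x => (h x).trans_eq (l1aF_e hw k x)).trans_eq ?_
  rw [integral_sub h1 (l1aI_int _), integral_sub (l1aF_int w (k + 1)).abs (l1aI_int _), l1aI_integral, l1aI_integral]
  ring

theorem l1aF_mono {w : ℕ → ℝ} (hw : Antitone w) : Monotone fun k => ∫ x, |l1aF w k x| := by
  refine monotone_nat_of_le_succ fun k => ?_
  have h1 := (l1aF_int w k).abs.sub' (l1aI_int (w k + 4))
  have := l1aF_eint hw k (h1.sub' (l1aI_int (w 0 + 4))) fun x => by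
    have e : l1aF w k x = (l1aF w (k + 1) x - l1aI (w k) x + l1aI (w 0 + 4) x) +
        (l1aI (w k + 4) x - l1aI (w 0 + 4) x) := by
      rw [l1aF, l1aF, Finset.sum_range_succ]; ring
    have := abs_add_le (l1aF w (k + 1) x - l1aI (w k) x + l1aI (w 0 + 4) x) (l1aI (w k + 4) x - l1aI (w 0 + 4) x)
    have := abs_sub (l1aI (w k + 4) x) (l1aI (w 0 + 4) x)
    rw [abs_of_nonneg (l1aI_nonneg _ _), abs_of_nonneg (l1aI_nonneg _ _)] at this
    rw [← e] at *
    linarith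
  rw [integral_sub h1 (l1aI_int _), integral_sub (l1aF_int w k).abs (l1aI_int _), l1aI_integral, l1aI_integral] at this
  linarith

theorem l1aF_gap {w : ℕ → ℝ} (hw : Antitone w) (k : ℕ) :
    min 2 |w k - (w (k + 1) + 4)| ≤ (∫ x, |l1aF w (k + 2) x|) - 4 := by
  have := l1aF_eint hw (k + 1) ((l1aI_int (w k)).sub' (l1aI_int2 (w k) (w (k + 1) + 4))) fun x => by
    rcases l1aI_cases (w k) x with ⟨a1, a2, a3⟩ | ⟨-, a3⟩
    · rcases l1aI_cases (w (k + 1) + 4) x with ⟨-, -, b3⟩ | ⟨-, b3⟩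
      · simp [a3, b3]
      · have := l1aF_lo (fun c hc => hw hc) a1 a2
        have := l1aI_nonneg (w 0 + 4) x
        refine le_trans ?_ (le_abs_self _)
        rw [l1aF, Finset.sum_range_succ, ← l1aF, a3, b3]
        linarith
    · simp [a3]
  rw [integral_sub (l1aI_int _) (l1aI_int2 _ _), l1aI_integral, l1aI_mul] at this
  linarith

theorem l1a_main {N : ℕ} (hN : 1 ≤ N) (u : Fin N → ℝ) : ∃ (s : Equiv.Perm (Fin N)) (w : ℕ → ℝ),
    (∀ c : Fin N, u (s c) = w c) ∧ 0 ≤ Ecoul 1 u ∧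
      ∀ k, k + 1 < N → min 2 |w k - (w (k + 1) + 4)| ≤ 2 * Ecoul 1 u := by
  obtain ⟨n, rfl⟩ : ∃ n, N = n + 1 := ⟨N - 1, by omega⟩
  have hm := Tuple.monotone_sort fun c => -u c
  generalize Tuple.sort (fun c => -u c) = s at hm
  obtain ⟨w, hw, e⟩ : ∃ w : ℕ → ℝ, Antitone w ∧ ∀ c : Fin (n + 1), u (s c) = w c :=
    ⟨fun k => u (s ⟨min k n, by omega⟩), fun i j h => neg_le_neg_iff.1 (hm (Fin.mk_le_mk.2 (min_le_min_right n h))),
      fun c => by simp only [min_eq_left (Nat.lt_succ_iff.1 c.2)]⟩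
  have h1 : Ecoul 1 (fun c : Fin (n + 1) => w c) = Ecoul 1 u := by
    simp only [← e, Ecoul]
    congr 2
    exact Fintype.sum_equiv s _ _ fun c => Fintype.sum_equiv s _ _ fun d => rfl
  have h2 := integral_mono (l1aF_int w (n + 1)).abs (l1aF_sq w).1 (l1aF_abs w (n + 1))
  rw [(l1aF_sq w).2, h1] at h2
  have h3 := l1aF_eint hw n (integrable_zero _ _ _) fun x => abs_nonneg _
  refine ⟨s, w, e, by simp only [Pi.zero_apply, integral_zero] at h3; linarith, fun k hk => ?_⟩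
  linarith [l1aF_gap hw k, l1aF_mono hw (show k + 2 ≤ n + 1 from hk)]

theorem Ecoul_smul {N : ℕ} {ε : ℝ} (hε : 0 < ε) (u : Fin N → ℝ) :
    Ecoul ε (fun c => ε * u c) = ε * Ecoul 1 u := by
  have h : ∀ y : ℝ, ε * |y| = |ε * y| := fun y => by rw [abs_mul, abs_of_pos hε]
  simp only [Ecoul, mul_sub ε, mul_add ε, mul_left_comm ε, Finset.mul_sum, h, mul_one, mul_comm _ ε]

theorem Ecoul_nonneg {N : ℕ} (hN : 1 ≤ N) {ε : ℝ} (hε : 0 < ε) (u : Fin N → ℝ) : 0 ≤ Ecoul ε u := by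
  have h := Ecoul_smul hε fun c => u c / ε
  simp only [mul_div_cancel₀ _ hε.ne'] at h
  obtain ⟨-, -, -, h0, -⟩ := l1a_main hN fun c => u c / ε
  exact h ▸ mul_nonneg hε.le h0

theorem Ecoul_chain {N : ℕ} (hN : 1 ≤ N) : Ecoul 1 (chain N) = 0 := by
  have h := (l1aF_sq (N := N) fun k => 4 * (((N : ℝ) - 1) / 2 - k)).2
  have e : ∀ x, l1aF (fun k => 4 * (((N : ℝ) - 1) / 2 - k)) N x = l1aI (2 - 2 * N) x - l1aI (2 * N + 2) x := fun x => by
    have := Finset.sum_range_sub (fun k : ℕ => l1aI (4 * (((N : ℝ) - 1) / 2 - k) + 4) x) N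
    push_cast at this
    rw [l1aF]
    ring_nf at this ⊢
    exact this
  have : (1 : ℝ) ≤ N := by exact_mod_cast hN
  simp only [e, (l1aI_bil _ _ _ _).2, sub_self, abs_zero] at h
  rw [abs_of_nonpos (by linarith), abs_of_nonneg (by linarith), min_eq_left (by linarith), min_eq_left (by linarith),
    min_eq_right (by norm_num)] at h
  change _ = 2 * Ecoul 1 (chain N) + 4 at h
  linarith

/-- Uniform positivity away from the chain. -/
theorem Ecoul_ge {N : ℕ} (hN : 1 ≤ N) {ℓ : ℝ} (hℓ : 0 < ℓ) : ∃ c : ℝ, 0 < c ∧ ∀ u : Fin N → ℝ,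
    ∑ a, u a = 0 → (∀ s : Equiv.Perm (Fin N), ℓ ^ 2 ≤ ∑ a, (u a - chain N (s a)) ^ 2) →
    c ≤ Ecoul 1 u := by
  have hN' : (1 : ℝ) ≤ N := by exact_mod_cast hN
  refine ⟨min 1 (ℓ / (2 * N ^ 2)), by positivity, fun u hu h => le_of_not_gt fun hc => ?_⟩
  obtain ⟨s, w, e, h0, hg⟩ := l1a_main hN u
  obtain ⟨c1, c2⟩ := lt_min_iff.1 hc
  generalize Ecoul 1 u = δ at *
  have h1 : ∀ k < N, |w k + 4 * k - w 0| ≤ k * (2 * δ) := fun k => by
    induction k with
    | zero => simp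
    | succ k ih =>
      intro hk
      have a := abs_le.1 (ih (by omega))
      have b := abs_le.1 ((min_le_iff.1 (hg k hk)).resolve_left (by linarith))
      push_cast
      rw [abs_le]
      constructor <;> linarith [a.1, a.2, b.1, b.2]
  have h2 : ∑ c, chain N c = 0 := by
    have : ∑ c, chain N c = ∑ c, -chain N c := Fintype.sum_equiv Fin.revPerm _ _ fun c => by
      simp only [chain, Fin.revPerm_apply, Fin.val_rev]
      rw [Nat.cast_sub c.2]
      push_cast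
      ring
    rw [Finset.sum_neg_distrib] at this
    linarith
  have h3 : ∑ c : Fin N, (w c - chain N c) = 0 := by
    rw [Finset.sum_sub_distrib, h2, ← Finset.sum_congr rfl fun c _ => e c, Equiv.sum_comp s u, hu, sub_zero]
  have h4 := h s.symm
  rw [← Equiv.sum_comp s] at h4
  simp only [e, Equiv.symm_apply_apply] at h4
  obtain ⟨e0, he⟩ : ∃ e0 : ℝ, e0 = w 0 - 2 * (N - 1) := ⟨_, rfl⟩
  have h5 : ∑ c : Fin N, ((w c - chain N c) ^ 2 - 2 * e0 * (w c - chain N c)) ≤ ∑ _c : Fin N, (N * (2 * δ)) ^ 2 :=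
    Finset.sum_le_sum fun c _ => by
      have a : |w c + 4 * c - w 0| ≤ N * (2 * δ) :=
        (h1 c c.2).trans (mul_le_mul_of_nonneg_right (by exact_mod_cast c.2.le) (by linarith))
      have b := sq_le_sq' (abs_le.1 a).1 (abs_le.1 a).2
      have : w c + 4 * c - w 0 = w c - chain N c - e0 := by rw [he, chain]; ring
      rw [this] at b
      nlinarith [sq_nonneg e0]
  rw [Finset.sum_sub_distrib, ← Finset.mul_sum, h3, Finset.sum_const, Finset.card_univ, Fintype.card_fin,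
    nsmul_eq_mul] at h5
  rw [lt_div_iff₀ (by positivity)] at c2
  have h6 := pow_lt_pow_left₀ c2 (by positivity) two_ne_zero
  have h7 : (N : ℝ) * (N * (2 * δ)) ^ 2 * 1 ≤ N * (N * (2 * δ)) ^ 2 * N := by gcongr
  nlinarith

end Crest.Agent.R330

end
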