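import Crest.Agent.R330.L1.Pt

/-! # Row 330, L1/Fub: fibrewise integration over `φ = x 8` -/

set_option autoImplicit false
set_option linter.unusedSectionVars false

noncomputable section

open MeasureTheory
open scoped InnerProductSpace ContDiff Matrix

namespace Crest.Agent.R330.L1B

variable {E F : Type} [NormedAddCommGroup E] [InnerProductSpace ℝ E] [FiniteDimensional ℝ E]
  [MeasurableSpace E] [BorelSpace E]
  [NormedAddCommGroup F] [InnerProductSpace ℂ F] [FiniteDimensional ℂ F]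
  {𝔤 : Lie E} {N : ℕ}

/-- `X E = E ⊕ T 8 E`. -/
def asmE : WithLp 2 (E × T 8 E) ≃ₗᵢ[ℝ] X E where
  toFun p := asm8 p.snd p.fst
  invFun x := WithLp.toLp 2 (x 8, WithLp.toLp 2 fun i => x i.castSucc)
  map_add' p q := ext9 (fun i => by simp) (by simp)
  map_smul' r p := ext9 (fun i => by simp) (by simp)
  left_inv p := by
    obtain ⟨φ, Z⟩ := p
    simp
  right_inv x := ext9 (fun i => by simp) (by simp)
  norm_map' p := by
    rw [← sq_eq_sq₀ (norm_nonneg _) (norm_nonneg _), WithLp.prod_norm_sq_eq_of_L2]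
    exact (norm_asm8 _ _).trans (add_comm _ _)

theorem integral_le_of_fib {h₁ h₂ : X E → ℝ} (i₁ : Integrable h₁) (i₂ : Integrable h₂)
    (h : ∀ φ, ∫ Z, h₁ (asm8 Z φ) ≤ ∫ Z, h₂ (asm8 Z φ)) : ∫ x, h₁ x ≤ ∫ x, h₂ x := by
  let e : E × T 8 E ≃ᵐ X E := (MeasurableEquiv.toLp 2 _).trans (asmE (E := E)).toMeasurableEquiv
  have he : MeasurePreserving e volume volume :=
    (asmE (E := E)).measurePreserving.comp (WithLp.volume_preserving_toLp E (T 8 E))
  have j₁ : Integrable (fun p => h₁ (e p)) := (he.integrable_comp_emb e.measurableEmbedding).2 i₁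
  have j₂ : Integrable (fun p => h₂ (e p)) := (he.integrable_comp_emb e.measurableEmbedding).2 i₂
  rw [← he.integral_comp' h₁, ← he.integral_comp' h₂, Measure.volume_eq_prod, integral_prod _ j₁,
    integral_prod _ j₂]
  exact integral_mono j₁.integral_prod_left j₂.integral_prod_left h

/-- The inclusion of the first eight matrices. -/
def inc : T 8 E →ₗ[ℝ] X E where
  toFun Z := asm8 Z 0
  map_add' p q := ext9 (fun i => by simp) (by simp)
  map_smul' r p := ext9 (fun i => by simp) (by simp)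

theorem asm8_eq (φ : E) : (fun Z : T 8 E => asm8 Z φ) = fun Z => LinearMap.toContinuousLinearMap inc Z + asm8 0 φ :=
  funext fun Z => ext9 (fun i => by simp [inc]) (by simp [inc])

theorem isometry_asm8 (φ : E) : Isometry fun Z : T 8 E => asm8 Z φ := by
  refine Isometry.of_dist_eq fun Z Z' => ?_
  have : asm8 Z φ - asm8 Z' φ = asm8 (Z - Z') 0 := ext9 (fun i => by simp) (by simp)
  rw [dist_eq_norm, dist_eq_norm, this, norm_asm8_zero]

theorem integrable_fib {h : X E → ℝ} (hc : Continuous h) (hs : HasCompactSupport h) (φ : E) :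
    Integrable fun Z : T 8 E => h (asm8 Z φ) :=
  (hc.comp (isometry_asm8 φ).continuous).integrable_of_hasCompactSupport
    (hs.comp_isClosedEmbedding (isometry_asm8 φ).isClosedEmbedding)

theorem continuous_gsq {ψ : X E → F} (hψ : Core ψ) : Continuous (gsq ψ) :=
  continuous_finsetSum _ fun _ _ => ((hψ.1.continuous_fderiv (by simp)).clm_apply continuous_const).norm.pow 2

theorem hcs_gsq {ψ : X E → F} (hψ : Core ψ) : HasCompactSupport (gsq ψ) :=
  (hψ.2.fderiv ℝ).mono fun x hx h0 => hx (by simp [gsq, h0])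

/-- Oscillator bound in a fibre. -/
theorem fibre_osc {ψ : X E → F} (hψ : Core ψ) (φ : E) (G : T 8 E →ₗ[ℝ] T 8 E) :
    ∫ Z, (LinearMap.trace ℝ (T 8 E) G - ‖G Z‖ ^ 2) * ‖ψ (asm8 Z φ)‖ ^ 2 ≤ ∫ Z, gsq ψ (asm8 Z φ) := by
  have ha : ∀ Z, HasFDerivAt (fun Z : T 8 E => asm8 Z φ) (LinearMap.toContinuousLinearMap inc) Z := fun Z => by
    rw [asm8_eq]
    exact (ContinuousLinearMap.hasFDerivAt _).add_const _
  have hs : ContDiff ℝ 1 fun Z : T 8 E => ψ (asm8 Z φ) := by
    refine (hψ.1.of_le (by simp)).comp ?_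
    rw [asm8_eq]
    exact (ContinuousLinearMap.contDiff _).add contDiff_const
  have hc : HasCompactSupport fun Z : T 8 E => ψ (asm8 Z φ) :=
    hψ.2.comp_isClosedEmbedding (isometry_asm8 φ).isClosedEmbedding
  have hd : ∀ Z v, fderiv ℝ (fun Z : T 8 E => ψ (asm8 Z φ)) Z v = fderiv ℝ ψ (asm8 Z φ) (inc v) := fun Z v =>
    DFunLike.congr_fun ((hψ.1.differentiable (by simp) _).hasFDerivAt.comp Z (ha Z)).fderiv v
  have h := vf_ineq LinearMap.id hs hc (fun Z v => fderiv ℝ (fun Z : T 8 E => ψ (asm8 Z φ)) Z v) (fun _ _ => rfl)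
    (fun v => (hs.continuous_fderiv (by simp)).clm_apply continuous_const)
    (fun Z hZ v => by rw [fderiv_of_notMem_tsupport ℝ hZ]; rfl) isOpen_univ (Set.subset_univ _)
    (ϖ := fun _ => 1) contDiffOn_const (fun _ _ => zero_le_one) (fun _ _ _ => by simp)
    (W := LinearMap.toContinuousLinearMap G) (ContinuousLinearMap.contDiff _).contDiffOn
  simp only [one_mul, ContinuousLinearMap.fderiv, LinearMap.comp_id] at h
  refine h.trans (integral_mono_of_nonneg (.of_forall fun Z => Finset.sum_nonneg fun _ _ => sq_nonneg _)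
    (integrable_fib (continuous_gsq hψ) (hcs_gsq hψ) φ) (.of_forall fun Z => ?_))
  have := sum_fderiv_map_sq_le ψ (asm8 Z φ) inc 1 fun v => by
    rw [one_mul]
    exact (norm_asm8_zero v).le
  simpa only [hd, one_pow, one_mul] using this

theorem continuous_yuk (σ : Spn) (ε : ℝ) {f : E → E} (hf : ContDiff ℝ ∞ f) (v : Th E) :
    Continuous fun x : X E => yuk 𝔤 σ ε f x v := by
  have h1 : ∀ (i : Fin 9) (w : E), Continuous fun x : X E => 𝔤.br (x i) w := fun i w =>
    (𝔤.br.flip w).continuous_of_finiteDimensional.comp (by fun_prop)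
  have h2 : ∀ w : E, Continuous fun x : X E => fderiv ℝ f (x 8) w := fun w =>
    ((hf.continuous_fderiv (by simp)).comp (by fun_prop)).clm_apply continuous_const
  refine (PiLp.continuous_toLp 2 _).comp (continuous_pi fun α => ?_)
  change Continuous fun x : X E => yuk 𝔤 σ ε f x v α
  simp only [yuk, LinearMap.add_apply, LinearMap.sub_apply, LinearMap.sum_apply, LinearMap.comp_apply,
    PiLp.add_apply, PiLp.sub_apply, WithLp.ofLp_sum, Finset.sum_apply, mat_apply, lift_apply,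
    ContinuousLinearMap.coe_coe]
  fun_prop

theorem continuous_iS (C : Cl (Th E) F) (σ : Spn) (ε : ℝ) {f : E → E} (hf : ContDiff ℝ ∞ f) :
    Continuous fun x : X E => C.iS (yuk 𝔤 σ ε f x) := by
  have h : ∀ v, Continuous fun x : X E => C.θ (yuk 𝔤 σ ε f x v) := fun v =>
    C.contDiff_θ.continuous.comp (continuous_yuk σ ε hf v)
  unfold Cl.iS Cl.S
  fun_prop

theorem continuous_zsq : Continuous (zsq : X E → ℝ) := by
  unfold zsq
  fun_prop

theorem coulomb_pos (C : Cl (Th E) F) (σ : Spn) (M : MatSys N 𝔤) (hN : 0 < N) : ∃ c B : ℝ, 0 < c ∧ 0 < B ∧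
    ∀ ε : ℝ, 0 < ε → ∀ f : E → E, ContDiff ℝ ∞ f →
    ∀ b₁ b₂ : ℝ, (∀ v, ‖f v‖ ≤ b₁) → (∀ v, ‖fderiv ℝ f v‖ ≤ b₂) →
    ∀ e : E → ℝ, Continuous e → (∀ v, e v ≤ Ecoul ε (M.herm v).eigenvalues) → ∀ ψ : X E → F, Core ψ →
      ∫ x, (e (x 8) + c * min ε (ε ^ 2) / ((1 + ε) * (1 + b₁)) * zsq x -
          B * (1 + ε⁻¹ ^ 2 + √b₁ + b₂)) * ‖ψ x‖ ^ 2 ≤ ∫ x, edens 𝔤 C σ ε f (1 / 2) ψ x := by
  obtain ⟨c, B, hc, hB, h⟩ := pointwise C σ M hN
  refine ⟨c, B, hc, hB, fun ε hε f hf b₁ b₂ h₁ h₂ e he hle ψ hψ => ?_⟩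
  have cψ := hψ.1.continuous
  have cz := continuous_zsq (E := E)
  have cw := (contDiff_wd 𝔤 σ ε hf).continuous
  have ci := continuous_iS (𝔤 := 𝔤) C σ ε hf
  set P : X E → ℝ := fun x => 1 / 2 * ‖wd 𝔤 σ ε f x‖ ^ 2 * ‖ψ x‖ ^ 2 +
    (⟪ψ x, C.iS (yuk 𝔤 σ ε f x) (ψ x)⟫_ℂ).re with hP
  have cP : Continuous P := by
    refine Continuous.add (by fun_prop) (Complex.continuous_re.comp (cψ.inner (ci.clm_apply cψ)))
  have sP : HasCompactSupport P := hψ.2.mono fun x hx h0 => hx (by simp [hP, h0])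
  have cL : Continuous fun x : X E => (e (x 8) + c * min ε (ε ^ 2) / ((1 + ε) * (1 + b₁)) * zsq x -
      B * (1 + ε⁻¹ ^ 2 + √b₁ + b₂)) * ‖ψ x‖ ^ 2 := by fun_prop
  have sL : HasCompactSupport fun x : X E => (e (x 8) + c * min ε (ε ^ 2) / ((1 + ε) * (1 + b₁)) * zsq x -
      B * (1 + ε⁻¹ ^ 2 + √b₁ + b₂)) * ‖ψ x‖ ^ 2 := hψ.2.mono fun x hx h0 => hx (by simp [h0])
  have eE : edens 𝔤 C σ ε f (1 / 2) ψ = fun x => 1 / 2 * gsq ψ x + P x := funext fun x => add_assoc _ _ _
  rw [eE]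
  refine integral_le_of_fib (cL.integrable_of_hasCompactSupport sL)
    ((((continuous_gsq hψ).integrable_of_hasCompactSupport (hcs_gsq hψ)).const_mul _).add
      (cP.integrable_of_hasCompactSupport sP)) fun φ => ?_
  obtain ⟨G, hG⟩ := h ε hε f b₁ b₂ h₁ h₂ φ
  have iG : Integrable fun Z : T 8 E => (LinearMap.trace ℝ (T 8 E) G - ‖G Z‖ ^ 2) * ‖ψ (asm8 Z φ)‖ ^ 2 := by
    have c1 := G.continuous_of_finiteDimensional
    have c2 := cψ.comp (isometry_asm8 φ).continuous
    refine Continuous.integrable_of_hasCompactSupport ((continuous_const.sub (c1.norm.pow 2)).mul (c2.norm.pow 2))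
      ((hψ.2.comp_isClosedEmbedding (isometry_asm8 φ).isClosedEmbedding).mono fun Z hZ h0 => hZ ?_)
    simp [show ψ (asm8 Z φ) = 0 from h0]
  have iP := integrable_fib cP sP φ
  calc _ ≤ ∫ Z, (1 / 2 * ((LinearMap.trace ℝ (T 8 E) G - ‖G Z‖ ^ 2) * ‖ψ (asm8 Z φ)‖ ^ 2) + P (asm8 Z φ)) := by
        refine integral_mono (integrable_fib cL sL φ) ((iG.const_mul _).add iP) fun Z => ?_
        refine le_trans ?_ (hG Z (ψ (asm8 Z φ)))
        dsimp only
        rw [zsq_asm8, asm8_last]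
        gcongr
        exact hle φ
    _ ≤ _ := by
        rw [integral_add (iG.const_mul _) iP,
          integral_add ((integrable_fib (continuous_gsq hψ) (hcs_gsq hψ) φ).const_mul _) iP, integral_const_mul,
          integral_const_mul]
        linarith [fibre_osc hψ φ G]

end Crest.Agent.R330.L1B

end
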