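import Crest.Agent.R330.L1.A
import Crest.Agent.R330.IMat
import Crest.Agent.R330.L1.Fub

/-! # Row 330, L1/B (statements frozen; see `R330/Blueprint.lean`) -/

set_option autoImplicit false
set_option linter.unusedSectionVars false

noncomputable section

open MeasureTheory Filter Topology
open scoped InnerProductSpace ContDiff Matrix
open Crest.MathPhysics.MatrixQM (GammaNine)

namespace Crest.Agent.R330

variable {E F : Type} [NormedAddCommGroup E] [InnerProductSpace ℝ E] [FiniteDimensional ℝ E]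
  [MeasurableSpace E] [BorelSpace E]
  [NormedAddCommGroup F] [InnerProductSpace ℂ F] [FiniteDimensional ℂ F]
  {𝔤 : Lie E} (C : Cl (Th E) F) (σ : Spn)

/-- Fibrewise (in `φ`) lower bound.  `e` is any continuous function below the one-loop energy of
the eigenvalues; `b₁` bounds `|f|` and `b₂` bounds `|f'|`. -/
theorem coulomb {N : ℕ} (M : MatSys N 𝔤) : ∃ c B : ℝ, 0 < c ∧ 0 < B ∧ ∀ ε : ℝ, 0 < ε → ∀ Fn : E → ℝ, ContDiff ℝ ∞ Fn →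
    ∀ b₁ b₂ : ℝ, (∀ v, ‖gradient Fn v‖ ≤ b₁) → (∀ v, ‖fderiv ℝ (gradient Fn) v‖ ≤ b₂) →
    ∀ e : E → ℝ, Continuous e →
      (∀ v, e v ≤ Ecoul ε (M.herm v).eigenvalues) → ∀ ψ, Cls 𝔤 C σ.G neut ψ →
      ∫ x, (e (x 8) + c * min ε (ε ^ 2) / ((1 + ε) * (1 + b₁)) * zsq x -
          B * (1 + ε⁻¹ ^ 2 + √b₁ + b₂)) * ‖ψ x‖ ^ 2 ≤
        ∫ x, ‖Qd 𝔤 C σ ε (gradient Fn) ψ x‖ ^ 2 := by
  rcases Nat.eq_zero_or_pos N with rfl | hN
  · refine ⟨1, 1, one_pos, one_pos, fun ε hε Fn _ b₁ b₂ _ h₂ e _ hle ψ _ => ?_⟩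
    refine (integral_nonpos fun x => mul_nonpos_of_nonpos_of_nonneg ?_ (sq_nonneg _)).trans
      (integral_nonneg fun x => sq_nonneg _)
    have h0 : zsq x = 0 := by simp [zsq, M.norm_sq]
    have h1 : e (x 8) ≤ -2 * ε := (hle _).trans (by simp [Ecoul])
    have h2 : 0 ≤ b₂ := (norm_nonneg _).trans (h₂ 0)
    have h3 : 0 ≤ 1 + ε⁻¹ ^ 2 + √b₁ + b₂ := by positivity
    rw [h0]
    linarith
  obtain ⟨c, B, hc, hB, h⟩ := L1B.coulomb_pos C σ M hN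
  refine ⟨c, B, hc, hB, fun ε hε Fn hF b₁ b₂ h₁ h₂ e he hle ψ hψ => ?_⟩
  have hg : ContDiff ℝ ∞ (gradient Fn) :=
    (InnerProductSpace.toDual ℝ E).symm.toContinuousLinearEquiv.contDiff.comp (hF.fderiv_right (m := ∞) (by simp))
  rw [energy_Qd 𝔤 C σ ε 0 hF ⟨hψ.1, hψ.2.1, fun _ h => h.elim⟩ (Or.inr (hψ.2.2 (V0, 0) rfl)), mul_zero, zero_mul,
    add_zero]
  exact h ε hε _ hg b₁ b₂ h₁ h₂ e he hle ψ hψ.1

/-- Gaussian confinement of `Z`, uniform on compact ranges of `ε`. -/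
theorem agmon_lower {N : ℕ} (M : MatSys N 𝔤) (hN : 1 ≤ N) (ε₁ ε₂ : ℝ) (h₁ : 0 < ε₁) (h₂ : ε₁ ≤ ε₂) : ∃ c B : ℝ, 0 < c ∧
    ∀ ε, ε₁ ≤ ε → ε ≤ ε₂ → ∀ ψ, Cls 𝔤 C σ.G neut ψ →
      ∫ x, (c * zsq x - B) * ‖ψ x‖ ^ 2 ≤ ∫ x, ‖Qe 𝔤 C σ ε ψ x‖ ^ 2 := by
  obtain ⟨c, B, hc, hB, h⟩ := L1B.coulomb_pos C σ M hN
  have hε₂ : 0 < ε₂ := h₁.trans_le h₂
  refine ⟨c * min ε₁ (ε₁ ^ 2) / (1 + ε₂), B * (1 + ε₁⁻¹ ^ 2), by positivity, fun ε hε hε' ψ hψ => ?_⟩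
  have hε0 : 0 < ε := h₁.trans_le hε
  rw [energy_Qe 𝔤 C σ ε 0 ⟨hψ.1, hψ.2.1, fun _ h => h.elim⟩ (Or.inr (hψ.2.2 (V0, 0) rfl)), mul_zero, zero_mul,
    add_zero]
  refine le_trans ?_ (h ε hε0 (fun _ => 0) contDiff_const 0 0 (by simp) (by simp) (fun _ => 0) continuous_const
    (fun v => Ecoul_nonneg hN hε0 _) ψ hψ.1)
  have cψ := hψ.1.1.continuous
  have cz := L1B.continuous_zsq (E := E)
  refine integral_mono (Continuous.integrable_of_hasCompactSupport (by fun_prop)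
    (hψ.1.2.mono fun x hx h0 => hx (by simp [h0]))) (Continuous.integrable_of_hasCompactSupport (by fun_prop)
    (hψ.1.2.mono fun x hx h0 => hx (by simp [h0]))) fun x => mul_le_mul_of_nonneg_right ?_ (sq_nonneg _)
  have hz : 0 ≤ zsq x := Finset.sum_nonneg fun _ _ => sq_nonneg _
  simp only [Real.sqrt_zero, add_zero, zero_add, mul_one]
  gcongr

end Crest.Agent.R330

end
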