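import Crest.Agent.R330.L1.Sp

/-! # Row 330, L1/Op: Schur multipliers and spectral components -/

set_option autoImplicit false
set_option linter.unusedSectionVars false

noncomputable section

open scoped InnerProductSpace Matrix

namespace Crest.Agent.R330.L1B

variable {E : Type} [NormedAddCommGroup E] [InnerProductSpace ℝ E] [FiniteDimensional ℝ E]
  {𝔤 : Lie E} {N : ℕ}

/-- Conjugating a matrix system so that `φ` becomes diagonal. -/
theorem exists_diag (M : MatSys N 𝔤) (φ : E) : ∃ M' : MatSys N 𝔤,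
    M'.m φ = Matrix.diagonal fun a => (((M.herm φ).eigenvalues a : ℝ) : ℂ) := by
  set U : Matrix (Fin N) (Fin N) ℂ := ((M.herm φ).eigenvectorUnitary : Matrix (Fin N) (Fin N) ℂ) with hU
  have h1 : U * star U = 1 := Unitary.coe_mul_star_self _
  have h2 : star U * U = 1 := Unitary.coe_star_mul_self _
  have hm : ∀ A B : Matrix (Fin N) (Fin N) ℂ, star U * A * U * (star U * B * U) = star U * (A * B) * U := by
    intro A B
    calc star U * A * U * (star U * B * U) = star U * A * (U * star U) * B * U := by simp only [mul_assoc]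
      _ = _ := by rw [h1]; simp only [mul_one, mul_assoc]
  have ht : ∀ A : Matrix (Fin N) (Fin N) ℂ, (star U * A * U).trace = A.trace := by
    intro A
    rw [Matrix.trace_mul_comm, ← mul_assoc, h1, one_mul]
  refine ⟨⟨⟨⟨fun v => star U * M.m v * U, fun u v => ?_⟩, fun r v => ?_⟩, fun v => ?_, fun v => ?_,
    fun u v => ?_, fun u v => ?_, fun A hA h0 => ?_⟩, ?_⟩
  · rw [map_add, mul_add, add_mul]
  · simp
  · exact Matrix.isHermitian_conjTranspose_mul_mul U (M.herm v)
  · exact (ht _).trans (M.traceless v)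
  · change _ = (star U * M.m u * U * (star U * M.m v * U)).trace.re
    rw [hm, ht, M.inner]
  · change star U * M.m (𝔤.br u v) * U = Complex.I • (star U * M.m u * U * (star U * M.m v * U) -
      star U * M.m v * U * (star U * M.m u * U))
    rw [hm, hm, M.br, mul_smul_comm, smul_mul_assoc, mul_sub, sub_mul]
  · obtain ⟨v, hv⟩ := M.surj (U * A * star U) (Matrix.isHermitian_mul_mul_conjTranspose U hA) (by
      rw [Matrix.trace_mul_comm, ← mul_assoc, h2, one_mul, h0])
    refine ⟨v, ?_⟩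
    change star U * M.m v * U = A
    rw [hv]
    calc star U * (U * A * star U) * U = (star U * U) * A * (star U * U) := by simp only [mul_assoc]
      _ = A := by rw [h2, one_mul, mul_one]
  · have := (M.herm φ).conjStarAlgAut_star_eigenvectorUnitary
    rw [Unitary.conjStarAlgAut_apply, Unitary.coe_star, star_star] at this
    exact this

variable (M : MatSys N 𝔤)

theorem m_star (v : E) (a b : Fin N) : (starRingEnd ℂ) (M.m v a b) = M.m v b a := (M.herm v).apply b a

theorem inner_eq (u v : E) : ⟪u, v⟫_ℝ = ∑ a, ∑ b, ((starRingEnd ℂ) (M.m u a b) * M.m v a b).re := by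
  rw [M.inner, Matrix.trace, Complex.re_sum, Finset.sum_comm]
  refine Finset.sum_congr rfl fun a _ => ?_
  rw [Matrix.diag_apply, Matrix.mul_apply, Complex.re_sum]
  exact Finset.sum_congr rfl fun b _ => by rw [m_star]

theorem m_inj : Function.Injective M.m := by
  refine (injective_iff_map_eq_zero _).2 fun v hv => ?_
  have := M.inner v v
  rw [hv] at this
  simpa using this

/-- Schur multipliers. -/
theorem exists_sch (k : Fin N → Fin N → ℂ) (hk : ∀ a b, (starRingEnd ℂ) (k a b) = k b a) (d : ℂ)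
    (hd : ∀ a, k a a = d) : ∃ S : E →ₗ[ℝ] E, ∀ v a b, M.m (S v) a b = k a b * M.m v a b := by
  have h : ∀ v, ∃ w, ∀ a b, M.m w a b = k a b * M.m v a b := by
    intro v
    obtain ⟨w, hw⟩ := M.surj (Matrix.of fun a b => k a b * M.m v a b)
      (by
        ext a b
        simp [Matrix.conjTranspose_apply, hk, m_star])
      (by
        have := M.traceless v
        simp only [Matrix.trace, Matrix.diag_apply, Matrix.of_apply, hd, ← Finset.mul_sum] at this ⊢
        rw [this, mul_zero])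
    exact ⟨w, fun a b => by rw [hw]; rfl⟩
  choose S hS using h
  refine ⟨⟨⟨S, fun u v => m_inj M ?_⟩, fun r v => m_inj M ?_⟩, hS⟩
  · ext a b
    simp [hS, mul_add]
  · ext a b
    simp [hS, mul_left_comm]

theorem sum_sq_of_rep {ι : Type} [Fintype ι] (b : OrthonormalBasis ι ℝ E) (f : E → ℝ) (r : E)
    (h : ∀ v, f v = ⟪r, v⟫_ℝ) : ∑ i, f (b i) ^ 2 = f r := by
  simp only [h]
  rw [real_inner_self_eq_norm_sq, ← b.sum_sq_inner_left r]

/-- Completeness relation. -/
theorem complete (hN : 0 < N) {ι : Type} [Fintype ι] (b : OrthonormalBasis ι ℝ E) (a c : Fin N) :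
    ∑ i, ‖M.m (b i) a c‖ ^ 2 = 1 - if a = c then 1 / (N : ℝ) else 0 := by
  have hN' : (N : ℂ) ≠ 0 := by exact_mod_cast hN.ne'
  obtain ⟨r, hr⟩ := M.surj ((1 / 2 : ℂ) • (Matrix.single a c 1 + Matrix.single c a 1) -
      (if a = c then 1 / (N : ℂ) else 0) • 1)
    (by
      simp only [Matrix.IsHermitian, Matrix.conjTranspose_sub, Matrix.conjTranspose_smul, Matrix.conjTranspose_add,
        Matrix.conjTranspose_single, Matrix.conjTranspose_one, star_one]
      rw [add_comm]
      split_ifs <;> simp)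
    (by
      by_cases h : a = c
      · subst h
        simp [Matrix.trace_sub, Matrix.trace_smul, hN']
        norm_num
      · simp [h, Matrix.trace_single_eq_of_ne, Ne.symm h])
  obtain ⟨s, hs⟩ := M.surj ((Complex.I / 2 : ℂ) • (Matrix.single a c 1 - Matrix.single c a 1))
    (by
      simp only [Matrix.IsHermitian, Matrix.conjTranspose_sub, Matrix.conjTranspose_smul,
        Matrix.conjTranspose_single, star_one]
      rw [← neg_sub (Matrix.single a c (1 : ℂ)), smul_neg, ← neg_smul]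
      congr 1
      simp [neg_div])
    (by
      by_cases h : a = c
      · subst h
        simp
      · simp [Matrix.trace_smul, Matrix.trace_sub, Matrix.trace_single_eq_of_ne, h, Ne.symm h])
  have e1 : ∀ v, (M.m v a c).re = ⟪r, v⟫_ℝ := by
    intro v
    rw [M.inner, hr, sub_mul, smul_mul_assoc, smul_mul_assoc, one_mul, add_mul, Matrix.trace_sub, Matrix.trace_smul,
      Matrix.trace_smul, M.traceless, Matrix.trace_add, Matrix.trace_single_mul, Matrix.trace_single_mul,
      ← m_star M v a c]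
    simp
    ring
  have e2 : ∀ v, (M.m v a c).im = ⟪s, v⟫_ℝ := by
    intro v
    rw [M.inner, hs, smul_mul_assoc, sub_mul, Matrix.trace_smul, Matrix.trace_sub, Matrix.trace_single_mul,
      Matrix.trace_single_mul, ← m_star M v a c]
    simp
    ring
  have h1 := sum_sq_of_rep b (fun v => (M.m v a c).re) r e1
  have h2 := sum_sq_of_rep b (fun v => (M.m v a c).im) s e2
  simp only [Complex.sq_norm, Complex.normSq_apply, ← sq, Finset.sum_add_distrib, h1, h2, hr, hs]
  by_cases h : a = c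
  · subst h
    simp
    norm_num
  · simp [h, Ne.symm h]
    norm_num

theorem trace_sch (hN : 0 < N) {S : E →ₗ[ℝ] E} {k : Fin N → Fin N → ℂ}
    (h : ∀ v a b, M.m (S v) a b = k a b * M.m v a b) {d : ℂ} (hd : ∀ a, k a a = d) :
    LinearMap.trace ℝ E S = ∑ a, ∑ b, (k a b).re - d.re := by
  have hN' : (N : ℝ) ≠ 0 := by exact_mod_cast hN.ne'
  rw [LinearMap.trace_eq_sum_inner S (stdOrthonormalBasis ℝ E)]
  have e : ∀ v, ⟪v, S v⟫_ℝ = ∑ a, ∑ b, (k a b).re * ‖M.m v a b‖ ^ 2 := by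
    intro v
    rw [inner_eq M]
    refine Finset.sum_congr rfl fun a _ => Finset.sum_congr rfl fun b _ => ?_
    rw [h, mul_left_comm, Complex.conj_mul', ← Complex.ofReal_pow, Complex.re_mul_ofReal]
  simp only [e]
  rw [Finset.sum_comm]
  simp only [Finset.sum_comm (s := (Finset.univ : Finset (Fin (Module.finrank ℝ E)))), ← Finset.mul_sum,
    complete M hN, mul_sub, mul_one, Finset.sum_sub_distrib, mul_ite, mul_zero, Finset.sum_ite_eq, Finset.mem_univ,
    if_true, hd]
  simp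
  field_simp

/-! ### spectral components -/

variable {n : ℕ} {τ : Type} [Fintype τ] [DecidableEq τ] (S : Spec n τ)

/-- The `(a, b)` matrix entries of a tuple. -/
def ent (x : T n E) (a b : Fin N) : Fin n → ℂ := fun i => M.m (x i) a b

/-- Spectral components. -/
def cp (x : T n E) (ω : τ × Fin N × Fin N) : EuclideanSpace ℂ (Fin n) :=
  WithLp.toLp 2 (S.Q ω.1 *ᵥ ent M x ω.2.1 ω.2.2)

theorem cp_add (x y : T n E) (ω : τ × Fin N × Fin N) : cp M S (x + y) ω = cp M S x ω + cp M S y ω := by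
  have : ent M (x + y) ω.2.1 ω.2.2 = ent M x ω.2.1 ω.2.2 + ent M y ω.2.1 ω.2.2 := by
    ext i
    simp [ent]
  simp [cp, this, Matrix.mulVec_add]

theorem cp_smul (r : ℝ) (x : T n E) (ω : τ × Fin N × Fin N) : cp M S (r • x) ω = (r : ℂ) • cp M S x ω := by
  have : ent M (r • x) ω.2.1 ω.2.2 = (r : ℂ) • ent M x ω.2.1 ω.2.2 := by
    ext i
    simp [ent]
  simp only [cp, this, Matrix.mulVec_smul, WithLp.toLp_smul]

theorem cp_sub (x y : T n E) (ω : τ × Fin N × Fin N) : cp M S (x - y) ω = cp M S x ω - cp M S y ω := by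
  rw [sub_eq_add_neg, ← neg_one_smul ℝ y, cp_add, cp_smul]
  simp [sub_eq_add_neg]

theorem inner_cp (x y : T n E) : ⟪x, y⟫_ℝ = ∑ ω, (⟪cp M S x ω, cp M S y ω⟫_ℂ).re := by
  have e : ∀ (t : τ) (u v : Fin n → ℂ), ⟪(WithLp.toLp 2 (S.Q t *ᵥ u) : EuclideanSpace ℂ (Fin n)),
      WithLp.toLp 2 (S.Q t *ᵥ v)⟫_ℂ = star u ⬝ᵥ (S.Q t *ᵥ v) := by
    intro t u v
    rw [EuclideanSpace.inner_toLp_toLp, dotProduct_comm, Matrix.star_mulVec, S.herm, ← Matrix.dotProduct_mulVec,
      Matrix.mulVec_mulVec, S.mul, if_pos rfl]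
  simp only [cp, e, Fintype.sum_prod_type]
  rw [Finset.sum_comm]
  simp only [Finset.sum_comm (s := (Finset.univ : Finset τ)), ← Complex.re_sum, ← dotProduct_sum,
    ← Matrix.sum_mulVec, S.sum, Matrix.one_mulVec]
  rw [PiLp.inner_apply]
  simp only [inner_eq M, ← Complex.re_sum]
  congr 1
  rw [Finset.sum_comm]
  refine Finset.sum_congr rfl fun a _ => ?_
  rw [Finset.sum_comm]
  rfl

theorem norm_cp (x : T n E) : ‖x‖ ^ 2 = ∑ ω, ‖cp M S x ω‖ ^ 2 := by
  rw [← real_inner_self_eq_norm_sq, inner_cp M S]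
  exact Finset.sum_congr rfl fun ω _ => by rw [← inner_self_eq_norm_sq (𝕜 := ℂ)]; rfl

variable {M S}

theorem inner_diag {x y : T n E} {α : τ × Fin N × Fin N → ℂ} (h : ∀ ω, cp M S y ω = α ω • cp M S x ω) :
    ⟪x, y⟫_ℝ = ∑ ω, (α ω).re * ‖cp M S x ω‖ ^ 2 := by
  rw [inner_cp M S]
  refine Finset.sum_congr rfl fun ω _ => ?_
  rw [h, inner_smul_right, inner_self_eq_norm_sq_to_K]
  exact (congrArg (fun z : ℂ => (α ω * z).re) (Complex.ofReal_pow _ 2).symm).trans (Complex.re_mul_ofReal _ _)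

theorem norm_diag {x y : T n E} {α : τ × Fin N × Fin N → ℂ} (h : ∀ ω, cp M S y ω = α ω • cp M S x ω) :
    ‖y‖ ^ 2 = ∑ ω, ‖α ω‖ ^ 2 * ‖cp M S x ω‖ ^ 2 := by
  rw [norm_cp M S]
  exact Finset.sum_congr rfl fun ω _ => by rw [h, norm_smul, mul_pow]

theorem cp_mat {A : Matrix (Fin n) (Fin n) ℝ} {μ : τ → ℂ} (h : S.Eig A μ) (x : T n E) (ω : τ × Fin N × Fin N) :
    cp M S (mat A x) ω = μ ω.1 • cp M S x ω := by
  have : ent M (mat A x) ω.2.1 ω.2.2 = A.map (fun r : ℝ => (r : ℂ)) *ᵥ ent M x ω.2.1 ω.2.2 := by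
    ext i
    simp [ent, Matrix.mulVec, dotProduct, Matrix.sum_apply]
  simp only [cp, this, Matrix.mulVec_mulVec, h ω.1, Matrix.smul_mulVec, WithLp.toLp_smul]

theorem cp_br {φ : E} {u : Fin N → ℝ} (h : M.m φ = Matrix.diagonal fun a => (u a : ℂ)) (x : T n E)
    (ω : τ × Fin N × Fin N) :
    cp M S (lift n (𝔤.br φ) x) ω = (Complex.I * ((u ω.2.1 - u ω.2.2 : ℝ) : ℂ)) • cp M S x ω := by
  have : ent M (lift n (𝔤.br φ) x) ω.2.1 ω.2.2 =
      (Complex.I * ((u ω.2.1 - u ω.2.2 : ℝ) : ℂ)) • ent M x ω.2.1 ω.2.2 := by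
    ext i
    simp only [ent, lift_apply, M.br, h, Matrix.smul_apply, Matrix.sub_apply, Matrix.diagonal_mul,
      Matrix.mul_diagonal, Pi.smul_apply, smul_eq_mul]
    push_cast
    ring
  simp only [cp, this, Matrix.mulVec_smul, WithLp.toLp_smul]

variable (M S)

/-- Functional calculus. -/
theorem exists_op (hN : 0 < N) (g : τ × Fin N × Fin N → ℝ) (hg : ∀ t a b, g (S.bar t, b, a) = g (t, a, b))
    (d : τ → ℝ) (hd : ∀ t a, g (t, a, a) = d t) : ∃ G : T n E →ₗ[ℝ] T n E,
      (∀ x ω, cp M S (G x) ω = (g ω : ℂ) • cp M S x ω) ∧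
      LinearMap.trace ℝ (T n E) G = ∑ ω, g ω - ∑ t, d t := by
  let K : Fin N → Fin N → Matrix (Fin n) (Fin n) ℂ := fun a b => ∑ t, (g (t, a, b) : ℂ) • S.Q t
  have hK : ∀ i j, ∃ L : E →ₗ[ℝ] E, ∀ v a b, M.m (L v) a b = K a b i j * M.m v a b := by
    intro i j
    refine exists_sch M (fun a b => K a b i j) (fun a b => ?_) (∑ t, (d t : ℂ) * S.Q t i j) fun a => ?_
    · simp only [K, Matrix.sum_apply, Matrix.smul_apply, smul_eq_mul, map_sum, map_mul, Complex.conj_ofReal]
      rw [← S.bar.sum_comp fun t => (g (t, b, a) : ℂ) * S.Q t i j]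
      refine Finset.sum_congr rfl fun t _ => ?_
      rw [hg, ← S.cj, Matrix.map_apply]
    · simp only [K, Matrix.sum_apply, Matrix.smul_apply, smul_eq_mul, hd]
  choose L hL using hK
  refine ⟨∑ i, ∑ j, mat (Matrix.single i j 1) ∘ₗ lift n (L i j), fun x ω => ?_, ?_⟩
  · have : ent M ((∑ i, ∑ j, mat (Matrix.single i j (1 : ℝ)) ∘ₗ lift n (L i j)) x) ω.2.1 ω.2.2 =
        K ω.2.1 ω.2.2 *ᵥ ent M x ω.2.1 ω.2.2 := by
      ext i
      simp [ent, Matrix.mulVec, dotProduct, Matrix.sum_apply, Matrix.single_apply, ite_and, hL]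
    have e : S.Q ω.1 * K ω.2.1 ω.2.2 = (g ω : ℂ) • S.Q ω.1 := by
      simp [K, Finset.mul_sum, S.mul]
    simp only [cp, this, Matrix.mulVec_mulVec, e, Matrix.smul_mulVec, WithLp.toLp_smul]
  · have e : ∀ i j, LinearMap.trace ℝ E (L i j) = ∑ a, ∑ b, (K a b i j).re - (∑ t, (d t : ℂ) * S.Q t i j).re :=
      fun i j => trace_sch M hN (hL i j) fun a => by
        simp only [K, Matrix.sum_apply, Matrix.smul_apply, smul_eq_mul, hd]
    have e1 : ∀ i j : Fin n, (Matrix.single i j (1 : ℝ)).trace = if i = j then 1 else 0 := by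
      intro i j
      split_ifs with h
      · subst h
        simp
      · exact Matrix.trace_single_eq_of_ne _ _ _ h
    have e2 : ∀ c : τ → ℝ, ∑ i, (∑ t, (c t : ℂ) * S.Q t i i).re = ∑ t, c t := by
      intro c
      have : ∀ t, ∑ i, S.Q t i i = 1 := S.tr
      rw [← Complex.re_sum, Finset.sum_comm]
      simp [← Finset.mul_sum, this]
    simp only [map_sum, trace_mat_lift, e1, ite_mul, one_mul, zero_mul, Finset.sum_ite_eq, Finset.mem_univ, if_true,
      e, Finset.sum_sub_distrib, e2]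
    congr 1
    rw [Finset.sum_comm, Fintype.sum_prod_type_right, Fintype.sum_prod_type]
    refine Finset.sum_congr rfl fun a _ => ?_
    rw [Finset.sum_comm]
    refine Finset.sum_congr rfl fun b _ => ?_
    rw [← e2]
    simp only [K, Matrix.sum_apply, Matrix.smul_apply, smul_eq_mul]

variable {M S}

/-- `|A|` is a majorant of `A`. -/
theorem two_inner_le {A B : T n E →ₗ[ℝ] T n E} {α : τ × Fin N × Fin N → ℂ} {β : τ × Fin N × Fin N → ℝ}
    (hA : ∀ x ω, cp M S (A x) ω = α ω • cp M S x ω) (hB : ∀ x ω, cp M S (B x) ω = (β ω : ℂ) • cp M S x ω)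
    (h : ∀ ω, ‖α ω‖ ≤ β ω) (x y : T n E) : 2 * ⟪x, A y⟫_ℝ ≤ ⟪x, B x⟫_ℝ + ⟪y, B y⟫_ℝ := by
  rw [inner_diag (hB x), inner_diag (hB y), inner_cp M S, Finset.mul_sum, ← Finset.sum_add_distrib]
  refine Finset.sum_le_sum fun ω _ => ?_
  have h1 : (⟪cp M S x ω, cp M S (A y) ω⟫_ℂ).re ≤ ‖cp M S x ω‖ * (‖α ω‖ * ‖cp M S y ω‖) := by
    rw [← norm_smul, ← hA]
    exact re_inner_le_norm (𝕜 := ℂ) _ _
  have h2 := mul_le_mul_of_nonneg_right (h ω) (mul_nonneg (norm_nonneg (cp M S x ω)) (norm_nonneg (cp M S y ω)))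
  have h3 := mul_nonneg ((norm_nonneg _).trans (h ω)) (sq_nonneg (‖cp M S x ω‖ - ‖cp M S y ω‖))
  simp only [Complex.ofReal_re]
  nlinarith

theorem symm_of_real {B : T n E →ₗ[ℝ] T n E} {β : τ × Fin N × Fin N → ℝ}
    (hB : ∀ x ω, cp M S (B x) ω = (β ω : ℂ) • cp M S x ω) (x y : T n E) : ⟪B x, y⟫_ℝ = ⟪x, B y⟫_ℝ := by
  rw [inner_cp M S, inner_cp M S]
  refine Finset.sum_congr rfl fun ω _ => ?_
  rw [hB, hB, inner_smul_left, inner_smul_right, Complex.conj_ofReal]

end Crest.Agent.R330.L1B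

end
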