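import Crest.Agent.R330.L1.Op
import Crest.Agent.R330.L1.A

/-! # Row 330, L1/Pt: the pointwise (in `φ`) algebra of the Coulomb bound -/

set_option autoImplicit false
set_option linter.unusedSectionVars false

noncomputable section

open scoped InnerProductSpace Matrix

namespace Crest.Agent.R330.L1B

variable {E F : Type} [NormedAddCommGroup E] [InnerProductSpace ℝ E] [FiniteDimensional ℝ E]
  [NormedAddCommGroup F] [InnerProductSpace ℂ F] [FiniteDimensional ℂ F]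
  {𝔤 : Lie E} {N : ℕ}

/-- The configuration `(Z, φ)`. -/
def asm8 (Z : T 8 E) (φ : E) : X E := WithLp.toLp 2 (Fin.snoc (α := fun _ => E) Z φ)

@[simp] theorem asm8_cast (Z : T 8 E) (φ : E) (i : Fin 8) : asm8 Z φ i.castSucc = Z i := by
  simp [asm8]

@[simp] theorem asm8_last (Z : T 8 E) (φ : E) : asm8 Z φ 8 = φ := rfl

theorem ext9 {x y : X E} (h : ∀ i : Fin 8, x i.castSucc = y i.castSucc) (h8 : x 8 = y 8) : x = y := by
  ext i
  induction i using Fin.lastCases with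
  | last => exact h8
  | cast i => exact h i

theorem sum9 {W : Type} [AddCommMonoid W] (g : Fin 9 → W) : ∑ i, g i = ∑ i : Fin 8, g i.castSucc + g 8 :=
  Fin.sum_univ_castSucc g

theorem norm_asm8 (Z : T 8 E) (φ : E) : ‖asm8 Z φ‖ ^ 2 = ‖Z‖ ^ 2 + ‖φ‖ ^ 2 := by
  rw [PiLp.norm_sq_eq_of_L2, PiLp.norm_sq_eq_of_L2, sum9]
  simp

theorem norm_asm8_zero (Z : T 8 E) : ‖asm8 Z 0‖ = ‖Z‖ := by
  have := norm_asm8 Z 0
  rw [norm_zero, zero_pow two_ne_zero, add_zero] at this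
  exact (pow_left_inj₀ (norm_nonneg _) (norm_nonneg _) two_ne_zero).1 this

theorem zsq_asm8 (Z : T 8 E) (φ : E) : zsq (asm8 Z φ) = ‖Z‖ ^ 2 := by
  simp [zsq, PiLp.norm_sq_eq_of_L2]

theorem br_self (φ : E) : 𝔤.br φ φ = 0 := by
  have := 𝔤.anti φ φ
  rw [eq_neg_iff_add_eq_zero, ← two_smul ℝ] at this
  exact (smul_eq_zero.1 this).resolve_left two_ne_zero

theorem V0_row (j : Fin 9) : V0 8 j = 0 ∧ V0 j 8 = 0 := by
  fin_cases j <;> simp [V0, pl]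

theorem mass_asm8 (ε : ℝ) (Z : T 8 E) (φ : E) :
    ε • mat V0 (asm8 Z φ) - lift 9 (𝔤.br φ) (asm8 Z φ) = asm8 (ε • mat V8 Z - lift 8 (𝔤.br φ) Z) 0 := by
  refine ext9 (fun i => ?_) ?_
  · simp [sum9, V0_row, V8]
  · simp [V0_row, br_self]

theorem proj_asm8 (Z : T 8 E) (φ : E) : mat (1 - Matrix.single 8 8 1) (asm8 Z φ) = asm8 Z 0 := by
  have h : ∀ i : Fin 8, (8 : Fin 9) ≠ i.castSucc := by decide
  refine ext9 (fun i => ?_) ?_
  · simp [Matrix.one_apply, h]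
  · simp [Matrix.one_apply, Matrix.single_apply]

theorem yuk_zero (σ : Spn) (ε : ℝ) (φ : E) (y : Th E) : yuk 𝔤 σ ε (fun _ => 0) (asm8 0 φ) y =
    mat (σ.G.γ 8) (lift 16 (𝔤.br φ) y - ε • mat (sig σ.G V0) y) := by
  rw [map_sub, map_smul]
  ext α
  simp [yuk, sum9, mat_mul]

theorem yuk_split (σ : Spn) (ε : ℝ) (f : E → E) (Z : T 8 E) (φ : E) : yuk 𝔤 σ ε f (asm8 Z φ) =
    yuk 𝔤 σ ε (fun _ => 0) (asm8 0 φ) + yuk 𝔤 σ 0 (fun v => f (v + φ)) (asm8 Z 0) := by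
  ext y α
  simp [yuk, sum9, fderiv_comp_add_right]
  abel

/-- Fermionic zero point energy. -/
def TF (ε : ℝ) (u : Fin N → ℝ) : ℝ := (∑ a, ∑ b, (4 * |u a - u b| + 2 * |u a - u b - 4 * ε| +
  2 * |u a - u b + 4 * ε| + 3 * |u a - u b - 2 * ε| + 3 * |u a - u b + 2 * ε| + |u a - u b - 6 * ε| +
  |u a - u b + 6 * ε|)) - 40 * ε

/-- Bosonic zero point energy. -/
def TB (ε : ℝ) (u : Fin N → ℝ) : ℝ := (∑ a, ∑ b, (2 * |u a - u b - 2 * ε| + 2 * |u a - u b + 2 * ε| +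
  2 * |u a - u b - 4 * ε| + 2 * |u a - u b + 4 * ε|)) - 24 * ε

theorem Ecoul_eq (ε : ℝ) (u : Fin N → ℝ) : Ecoul ε u = TB ε u / 2 - TF ε u / 4 := by
  simp only [Ecoul, TB, TF, Finset.sum_add_distrib, Finset.sum_sub_distrib, ← Finset.mul_sum]
  ring

theorem sum_om {τ : Type} [Fintype τ] (g : τ × Fin N × Fin N → ℝ) : ∑ ω, g ω = ∑ a, ∑ b, ∑ t, g (t, a, b) := by
  rw [Fintype.sum_prod_type_right, Fintype.sum_prod_type]

theorem fermi_lower (C : Cl (Th E) F) (σ : Spn) (M : MatSys N 𝔤) (hN : 0 < N) {φ : E} {u : Fin N → ℝ}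
    (h : M.m φ = Matrix.diagonal fun a => (u a : ℂ)) {ε : ℝ} (hε : 0 ≤ ε) (a : F) :
    -(TF ε u / 4) * ‖a‖ ^ 2 ≤ (⟪a, C.iS (yuk 𝔤 σ ε (fun _ => 0) (asm8 0 φ)) a⟫_ℂ).re := by
  obtain ⟨S, lam, χ, hb, hχ, h8, hσ, hs⟩ := exists_specF σ
  obtain ⟨B, hB, htr⟩ := exists_op M S hN (fun ω => |u ω.2.1 - u ω.2.2 - ε * lam ω.1|)
    (fun t a b => by
      rw [← abs_neg, hb]
      congr 1
      ring) (fun t => |0 - ε * lam t|) (fun t a => by simp)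
  have hA : ∀ y ω, cp M S (yuk 𝔤 σ ε (fun _ => 0) (asm8 0 φ) y) ω =
      ((χ ω.1 : ℂ) * (Complex.I * ((u ω.2.1 - u ω.2.2 - ε * lam ω.1 : ℝ) : ℂ))) • cp M S y ω := by
    intro y ω
    rw [yuk_zero, cp_mat h8, cp_sub, cp_smul, cp_br h, cp_mat hσ, smul_smul, ← sub_smul, smul_smul]
    congr 1
    push_cast
    ring
  have := C.iS_lower (isSkew_yuk 𝔤 σ ε (f := fun _ => 0) (asm8 0 φ) (by simp)) (symm_of_real hB)
    (two_inner_le hA hB fun ω => by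
      rw [norm_mul, norm_mul, Complex.norm_I, Complex.norm_real, Complex.norm_real, Real.norm_eq_abs,
        Real.norm_eq_abs, hχ, one_mul, one_mul]) a
  rw [htr, sum_om] at this
  convert this using 4
  have e : ∀ D : ℝ, ∑ t, |D - ε * lam t| = 4 * |D| + 2 * |D - 4 * ε| + 2 * |D + 4 * ε| + 3 * |D - 2 * ε| +
      3 * |D + 2 * ε| + |D - 6 * ε| + |D + 6 * ε| := by
    intro D
    rw [hs fun l => |D - ε * l|]
    simp only [zero_mul, sub_zero, neg_mul, sub_neg_eq_add, mul_comm ε]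
  simp only [e, TF]
  congr 1
  simp only [zero_sub, zero_add, abs_neg, abs_zero, abs_mul, abs_of_nonneg hε, Nat.abs_ofNat]
  ring

theorem exists_rank (u : Fin N → ℝ) : ∃ h : Fin N → ℝ, (∀ a, 0 ≤ h a ∧ h a ≤ N) ∧
    ∀ a b, u b < u a → h b + 1 ≤ h a := by
  refine ⟨fun a => ((Finset.univ.filter fun c => u c < u a).card : ℝ), fun a => ⟨by positivity, ?_⟩,
    fun a b hab => ?_⟩
  · have := Finset.card_filter_le Finset.univ fun c => u c < u a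
    rw [Finset.card_univ, Fintype.card_fin] at this
    dsimp only
    exact_mod_cast this
  · have : (Finset.univ.filter fun c => u c < u b) ⊂ Finset.univ.filter fun c => u c < u a :=
      (Finset.ssubset_iff_of_subset fun c hc => by
        simp only [Finset.mem_filter, Finset.mem_univ, true_and] at hc ⊢
        exact hc.trans hab).2 ⟨b, by simpa using hab, by simp⟩
    dsimp only
    exact_mod_cast Finset.card_lt_card this

theorem gap_le {ε a : ℝ} (hε : 0 < ε) (ha : ε ≤ a) : min ε (ε ^ 2) ≤ a ^ 2 - (max (a - 1) 0) ^ 2 := by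
  rcases le_total a 1 with h | h
  · rw [max_eq_right (by linarith)]
    exact (min_le_right _ _).trans (by nlinarith)
  · rw [max_eq_left (by linarith)]
    exact (min_le_left _ _).trans (by nlinarith)

theorem gap_nonneg {a : ℝ} (ha : 0 ≤ a) : 0 ≤ a ^ 2 - (max (a - 1) 0) ^ 2 :=
  sub_nonneg.2 (pow_le_pow_left₀ (le_max_right _ _) (max_le (by linarith) ha) 2)

theorem br_le_wpot (σ : Spn) (Z : T 8 E) (i j : Fin 8) :
    ‖𝔤.br (Z i) (Z j)‖ ≤ 2 * ‖wpot 𝔤 σ.G σ.s (asm8 Z 0)‖ := by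
  have h := norm_wpot_sq 𝔤 σ.G σ.unit (asm8 Z 0)
  have h1 : ‖𝔤.br (asm8 Z 0 i.castSucc) (asm8 Z 0 j.castSucc)‖ ^ 2 ≤
      ∑ i, ∑ j, ‖𝔤.br (asm8 Z 0 i) (asm8 Z 0 j)‖ ^ 2 :=
    (Finset.single_le_sum (f := fun j => ‖𝔤.br (asm8 Z 0 i.castSucc) (asm8 Z 0 j)‖ ^ 2)
      (fun _ _ => sq_nonneg _) (Finset.mem_univ _)).trans
      (Finset.single_le_sum (f := fun i => ∑ j, ‖𝔤.br (asm8 Z 0 i) (asm8 Z 0 j)‖ ^ 2)
        (fun _ _ => Finset.sum_nonneg fun _ _ => sq_nonneg _) (Finset.mem_univ _))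
  rw [asm8_cast, asm8_cast] at h1
  refine abs_le_of_sq_le_sq' ?_ (by positivity) |>.2
  nlinarith [sq_nonneg ‖wpot 𝔤 σ.G σ.s (asm8 Z 0)‖]

theorem inner_J8 (σ : Spn) (Z : T 8 E) (η : E) :
    -⟪Z, mat J8 (lift 8 (𝔤.br η) Z)⟫_ℝ ≤ 128 * ‖η‖ * ‖wpot 𝔤 σ.G σ.s (asm8 Z 0)‖ := by
  rw [PiLp.inner_apply]
  simp only [mat_apply, lift_apply, inner_sum, real_inner_smul_right, ← Finset.sum_neg_distrib]
  calc _ ≤ ∑ i : Fin 8, ∑ j : Fin 8, 2 * ‖η‖ * ‖wpot 𝔤 σ.G σ.s (asm8 Z 0)‖ := by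
        refine Finset.sum_le_sum fun i _ => Finset.sum_le_sum fun j _ => (neg_le_abs _).trans ?_
        rw [abs_mul, 𝔤.anti, inner_neg_right, abs_neg, ← 𝔤.inv]
        calc _ ≤ 1 * (‖𝔤.br (Z i) (Z j)‖ * ‖η‖) :=
              mul_le_mul (abs_J8_le i j) (abs_real_inner_le_norm _ _) (abs_nonneg _) zero_le_one
          _ ≤ 1 * (2 * ‖wpot 𝔤 σ.G σ.s (asm8 Z 0)‖ * ‖η‖) := by gcongr; exact br_le_wpot σ Z i j
          _ = _ := by ring
    _ = _ := by simp; ring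

theorem exists_eta (M : MatSys N 𝔤) (hN : 0 < N) {h : Fin N → ℝ} (hh : ∀ a, 0 ≤ h a ∧ h a ≤ N) :
    ∃ (η : E) (c : ℝ), (M.m η = Matrix.diagonal fun a => ((h a - c : ℝ) : ℂ)) ∧ ‖η‖ ≤ (N : ℝ) ^ 2 := by
  have hN' : (0 : ℝ) < N := by exact_mod_cast hN
  have hN1 : (1 : ℝ) ≤ N := by exact_mod_cast hN
  obtain ⟨η, hη⟩ := M.surj (Matrix.diagonal fun a => ((h a - (∑ b, h b) / N : ℝ) : ℂ))
    (Matrix.isHermitian_diagonal_of_self_adjoint _ (funext fun a => Complex.conj_ofReal _))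
    (by
      rw [Matrix.trace_diagonal, ← Complex.ofReal_sum, Finset.sum_sub_distrib, Finset.sum_const, Finset.card_univ,
        Fintype.card_fin, nsmul_eq_mul, mul_div_cancel₀ _ hN'.ne', sub_self, Complex.ofReal_zero])
  refine ⟨η, _, hη, abs_le_of_sq_le_sq' ?_ (by positivity) |>.2⟩
  have h0 : 0 ≤ (∑ b, h b) / N := div_nonneg (Finset.sum_nonneg fun b _ => (hh b).1) hN'.le
  have h1 : (∑ b, h b) / N ≤ N := by
    rw [div_le_iff₀ hN']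
    exact (Finset.sum_le_sum fun b _ => (hh b).2).trans (by simp)
  rw [← real_inner_self_eq_norm_sq, M.inner, hη, Matrix.diagonal_mul_diagonal, Matrix.trace_diagonal,
    Complex.re_sum]
  calc _ ≤ ∑ _a : Fin N, (N : ℝ) ^ 2 := Finset.sum_le_sum fun a _ => by
        rw [← Complex.ofReal_mul, Complex.ofReal_re]
        nlinarith [hh a]
    _ = N * (N : ℝ) ^ 2 := by simp
    _ ≤ _ := by nlinarith [pow_pos hN' 3]

theorem bose (σ : Spn) (M : MatSys N 𝔤) (hN : 0 < N) {φ : E} {u : Fin N → ℝ}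
    (h : M.m φ = Matrix.diagonal fun a => (u a : ℂ)) {ε : ℝ} (hε : 0 < ε) :
    ∃ G : T 8 E →ₗ[ℝ] T 8 E, TB ε u - 8 * (N : ℝ) ^ 2 ≤ LinearMap.trace ℝ (T 8 E) G ∧ ∀ Z,
      0 ≤ ‖ε • mat V8 Z - lift 8 (𝔤.br φ) Z‖ ^ 2 - ‖G Z‖ ^ 2 ∧
      min ε (ε ^ 2) * ‖Z‖ ^ 2 ≤ (128 * (N : ℝ) ^ 2 + N + 1) * (min ε (ε ^ 2) * ‖wpot 𝔤 σ.G σ.s (asm8 Z 0)‖ +
        (‖ε • mat V8 Z - lift 8 (𝔤.br φ) Z‖ ^ 2 - ‖G Z‖ ^ 2)) := by
  obtain ⟨S, lam, s, hb, hs, hV, hJ, hsum⟩ := exists_specB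
  obtain ⟨G, hG, htr⟩ := exists_op M S hN (fun ω => max (|u ω.2.1 - u ω.2.2 - ε * lam ω.1| - 1) 0)
    (fun t a b => by
      rw [← abs_neg, hb]
      congr 3
      ring) (fun t => max (|0 - ε * lam t| - 1) 0) (fun t a => by simp)
  refine ⟨G, ?_, fun Z => ?_⟩
  · have e : ∀ D : ℝ, ∑ t, |D - ε * lam t| = 2 * |D - 2 * ε| + 2 * |D + 2 * ε| + 2 * |D - 4 * ε| +
        2 * |D + 4 * ε| := by
      intro D
      rw [hsum fun l => |D - ε * l|]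
      simp only [neg_mul, sub_neg_eq_add, mul_comm ε]
    have h1 : ∑ ω : Fin 8 × Fin N × Fin N, (|u ω.2.1 - u ω.2.2 - ε * lam ω.1| - 1) ≤
        ∑ ω : Fin 8 × Fin N × Fin N, max (|u ω.2.1 - u ω.2.2 - ε * lam ω.1| - 1) 0 :=
      Finset.sum_le_sum fun ω _ => le_max_left _ _
    have h2 : ∑ t, max (|0 - ε * lam t| - 1) 0 ≤ ∑ t, |0 - ε * lam t| :=
      Finset.sum_le_sum fun t _ => max_le (by linarith) (abs_nonneg _)
    rw [Finset.sum_sub_distrib, sum_om] at h1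
    simp only [e] at h1 h2
    simp only [zero_sub, zero_add, abs_neg, abs_mul, abs_of_pos hε, Nat.abs_ofNat] at h2
    simp only [Finset.sum_const, Finset.card_univ, Fintype.card_prod, Fintype.card_fin, nsmul_eq_mul] at h1
    push_cast at h1
    rw [htr, TB]
    simp only [zero_sub, abs_neg, abs_mul, abs_of_pos hε]
    nlinarith
  · have hA : ∀ ω, cp M S (ε • mat V8 Z - lift 8 (𝔤.br φ) Z) ω =
        (-Complex.I * ((u ω.2.1 - u ω.2.2 - ε * lam ω.1 : ℝ) : ℂ)) • cp M S Z ω := by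
      intro ω
      rw [cp_sub, cp_smul, cp_br h, cp_mat hV, smul_smul, ← sub_smul]
      congr 1
      push_cast
      ring
    have hm : ‖ε • mat V8 Z - lift 8 (𝔤.br φ) Z‖ ^ 2 - ‖G Z‖ ^ 2 =
        ∑ ω : Fin 8 × Fin N × Fin N, (|u ω.2.1 - u ω.2.2 - ε * lam ω.1| ^ 2 -
          (max (|u ω.2.1 - u ω.2.2 - ε * lam ω.1| - 1) 0) ^ 2) * ‖cp M S Z ω‖ ^ 2 := by
      rw [norm_diag hA, norm_diag (hG Z), ← Finset.sum_sub_distrib]
      refine Finset.sum_congr rfl fun ω _ => ?_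
      rw [norm_mul, norm_neg, Complex.norm_I, Complex.norm_real, Complex.norm_real, Real.norm_eq_abs,
        Real.norm_eq_abs, one_mul, abs_of_nonneg (a := max _ 0) (le_max_right _ _), sub_mul]
    have h0 : 0 ≤ ‖ε • mat V8 Z - lift 8 (𝔤.br φ) Z‖ ^ 2 - ‖G Z‖ ^ 2 :=
      hm ▸ Finset.sum_nonneg fun ω _ => mul_nonneg (gap_nonneg (abs_nonneg _)) (sq_nonneg _)
    refine ⟨h0, ?_⟩
    obtain ⟨r, hr, hr'⟩ := exists_rank u
    obtain ⟨η, c, hη, hη'⟩ := exists_eta M hN hr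
    have hμ : 0 < min ε (ε ^ 2) := by positivity
    have hJ' : -⟪Z, mat J8 (lift 8 (𝔤.br η) Z)⟫_ℝ =
        ∑ ω : Fin 8 × Fin N × Fin N, s ω.1 * (r ω.2.1 - r ω.2.2) * ‖cp M S Z ω‖ ^ 2 := by
      rw [inner_diag (M := M) (S := S) (α := fun ω => (-(s ω.1 * (r ω.2.1 - r ω.2.2)) : ℝ)) fun ω => by
        rw [cp_mat hJ, cp_br hη, smul_smul]
        congr 1
        push_cast
        linear_combination (s ω.1 * (r ω.2.1 - r ω.2.2) : ℂ) * Complex.I_sq, ← Finset.sum_neg_distrib]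
      exact Finset.sum_congr rfl fun ω _ => by rw [Complex.ofReal_re]; ring
    have key : min ε (ε ^ 2) * ‖Z‖ ^ 2 ≤ min ε (ε ^ 2) * -⟪Z, mat J8 (lift 8 (𝔤.br η) Z)⟫_ℝ +
        (N + 1) * (‖ε • mat V8 Z - lift 8 (𝔤.br φ) Z‖ ^ 2 - ‖G Z‖ ^ 2) := by
      rw [hJ', hm, norm_cp M S, Finset.mul_sum, Finset.mul_sum, Finset.mul_sum, ← Finset.sum_add_distrib]
      refine Finset.sum_le_sum fun ω _ => ?_
      rw [← mul_assoc, ← mul_assoc (_ + 1 : ℝ), ← add_mul]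
      refine mul_le_mul_of_nonneg_right ?_ (sq_nonneg _)
      obtain ⟨t, a, b⟩ := ω
      dsimp only
      have g0 := gap_nonneg (abs_nonneg (u a - u b - ε * lam t))
      have hN0 : (0 : ℝ) ≤ N := Nat.cast_nonneg _
      have ha := hr a
      have hb := hr b
      rcases hs t with ⟨h1, h2⟩ | ⟨h1, h2⟩ <;> rw [h1]
      · rcases lt_or_ge (u b) (u a) with h3 | h3
        · have := hr' a b h3
          nlinarith
        · have := gap_le hε (a := |u a - u b - ε * lam t|) (le_abs.2 (Or.inr (by nlinarith)))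
          nlinarith
      · rcases lt_or_ge (u a) (u b) with h3 | h3
        · have := hr' b a h3
          nlinarith
        · have := gap_le hε (a := |u a - u b - ε * lam t|) (le_abs.2 (Or.inl (by nlinarith)))
          nlinarith
    have h1 := (inner_J8 (𝔤 := 𝔤) σ Z η).trans (mul_le_mul_of_nonneg_right
      (mul_le_mul_of_nonneg_left hη' (by norm_num)) (norm_nonneg _))
    have h2 := mul_le_mul_of_nonneg_left h1 hμ.le
    have h3 := mul_nonneg hμ.le (norm_nonneg (wpot 𝔤 σ.G σ.s (asm8 Z 0)))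
    have hN0 : (0 : ℝ) ≤ N := Nat.cast_nonneg _
    nlinarith [mul_nonneg hN0 h3, mul_nonneg (sq_nonneg (N : ℝ)) h0]

theorem arith {K b ε b₁ z m p w : ℝ} (hK : 0 < K) (hb : 0 < b) (hε : 0 < ε) (hb₁ : 0 ≤ b₁)
    (hm : 0 ≤ m) (hp : 0 ≤ p) (hw : w ≤ p + b₁) (h : min ε (ε ^ 2) * z ^ 2 ≤ K * (min ε (ε ^ 2) * w + m)) :
    (8 * K)⁻¹ * min ε (ε ^ 2) / ((1 + ε) * (1 + b₁)) * z ^ 2 + b * z ≤
      1 / 2 * m + 1 / 2 * p ^ 2 + (2 + 2 * b ^ 2 * K + b * √K) * (1 + ε⁻¹ ^ 2 + √b₁) := by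
  set μ := min ε (ε ^ 2) with hμ
  have h0 : 0 < μ := by positivity
  have h1 : μ ≤ 1 + ε := (min_le_left _ _).trans (by linarith)
  have h2 : μ⁻¹ ≤ 1 + ε⁻¹ ^ 2 := by
    rcases le_total ε 1 with h | h
    · rw [hμ, min_eq_right (by nlinarith), inv_pow]
      linarith
    · rw [hμ, min_eq_left (by nlinarith)]
      have := inv_le_one_of_one_le₀ h
      nlinarith [sq_nonneg ε⁻¹]
  have h3 : μ * z ^ 2 ≤ K * (μ * (p + b₁) + m) := h.trans (by gcongr)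
  have A : (8 * K)⁻¹ * μ / ((1 + ε) * (1 + b₁)) * z ^ 2 ≤ (p + 1 + m) / 8 := by
    rw [div_mul_eq_mul_div, div_le_iff₀ (by positivity), mul_assoc, inv_mul_le_iff₀ (by positivity)]
    refine h3.trans ?_
    have : μ * (p + b₁) + m ≤ (p + 1 + m) * ((1 + ε) * (1 + b₁)) := by
      have e1 : μ * (p + b₁) ≤ (1 + ε) * ((p + 1) * (1 + b₁)) := by
        gcongr
        nlinarith [mul_nonneg hp hb₁]
      have e2 : m * 1 ≤ m * ((1 + ε) * (1 + b₁)) := by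
        gcongr
        nlinarith [mul_nonneg hε.le hb₁]
      nlinarith
    nlinarith
  have h4 : z ≤ √(K * p) + √K * √b₁ + √(K * (m * μ⁻¹)) := by
    refine abs_le_of_sq_le_sq' ?_ (by positivity) |>.2
    have e : z ^ 2 ≤ K * p + K * b₁ + K * (m * μ⁻¹) := by
      rw [← mul_le_mul_iff_right₀ h0]
      refine h3.trans (le_of_eq ?_)
      field_simp
    have e1 := Real.sq_sqrt (show 0 ≤ K * p by positivity)
    have e2 : (√K * √b₁) ^ 2 = K * b₁ := by rw [mul_pow, Real.sq_sqrt hK.le, Real.sq_sqrt hb₁]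
    have e3 := Real.sq_sqrt (show 0 ≤ K * (m * μ⁻¹) by positivity)
    have p1 := Real.sqrt_nonneg (K * p)
    have p2 : 0 ≤ √K * √b₁ := by positivity
    have p3 := Real.sqrt_nonneg (K * (m * μ⁻¹))
    nlinarith [mul_nonneg p1 p2, mul_nonneg p1 p3, mul_nonneg p2 p3]
  have B1 : b * √(K * p) ≤ p + b ^ 2 * K / 4 := by
    rw [Real.sqrt_mul hK.le]
    have e1 := Real.sq_sqrt hK.le
    have e2 := Real.sq_sqrt hp
    nlinarith [sq_nonneg (√p - b * √K / 2)]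
  have B3 : b * √(K * (m * μ⁻¹)) ≤ m / 4 + b ^ 2 * K * μ⁻¹ := by
    rw [mul_left_comm K, Real.sqrt_mul hm]
    have e1 := Real.sq_sqrt (show 0 ≤ K * μ⁻¹ by positivity)
    have e2 := Real.sq_sqrt hm
    nlinarith [sq_nonneg (√m / 2 - b * √(K * μ⁻¹))]
  have h5 := mul_le_mul_of_nonneg_left h4 hb.le
  have h6 : b ^ 2 * K * μ⁻¹ ≤ b ^ 2 * K * (1 + ε⁻¹ ^ 2) := by gcongr
  have q1 : 0 ≤ b ^ 2 * K := by positivity
  have q2 : 0 ≤ b * √K := by positivity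
  have q3 : 0 ≤ ε⁻¹ ^ 2 := by positivity
  have q4 := Real.sqrt_nonneg b₁
  nlinarith [sq_nonneg (p - 1), sq_nonneg (p - 2), mul_nonneg q1 q3, mul_nonneg q1 q4, mul_nonneg q2 q3]

/-- The pointwise bound, for the oscillator field `G`. -/
theorem pointwise (C : Cl (Th E) F) (σ : Spn) (M : MatSys N 𝔤) (hN : 0 < N) : ∃ c B : ℝ, 0 < c ∧ 0 < B ∧
    ∀ ε : ℝ, 0 < ε → ∀ (f : E → E) (b₁ b₂ : ℝ), (∀ v, ‖f v‖ ≤ b₁) → (∀ v, ‖fderiv ℝ f v‖ ≤ b₂) → ∀ φ : E,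
      ∃ G : T 8 E →ₗ[ℝ] T 8 E, ∀ (Z : T 8 E) (a : F),
        (Ecoul ε (M.herm φ).eigenvalues + c * min ε (ε ^ 2) / ((1 + ε) * (1 + b₁)) * ‖Z‖ ^ 2 -
          B * (1 + ε⁻¹ ^ 2 + √b₁ + b₂)) * ‖a‖ ^ 2 ≤
        1 / 2 * ((LinearMap.trace ℝ (T 8 E) G - ‖G Z‖ ^ 2) * ‖a‖ ^ 2) +
          (1 / 2 * ‖wd 𝔤 σ ε f (asm8 Z φ)‖ ^ 2 * ‖a‖ ^ 2 + (⟪a, C.iS (yuk 𝔤 σ ε f (asm8 Z φ)) a⟫_ℂ).re) := by
  obtain ⟨b, hb, hy⟩ := exists_norm_yuk 𝔤 C σ
  set K : ℝ := 128 * (N : ℝ) ^ 2 + N + 1 with hK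
  have hK0 : 0 < K := by positivity
  refine ⟨(8 * K)⁻¹, (2 + 2 * b ^ 2 * K + b * √K) + 4 * (N : ℝ) ^ 2 + b, by positivity, by positivity,
    fun ε hε f b₁ b₂ h₁ h₂ φ => ?_⟩
  obtain ⟨M', hM'⟩ := exists_diag M φ
  obtain ⟨G, hG, hZ⟩ := bose σ M' hN hM' hε
  refine ⟨G, fun Z a => ?_⟩
  obtain ⟨h0, hZ⟩ := hZ Z
  have hb₁ : 0 ≤ b₁ := (norm_nonneg _).trans (h₁ 0)
  have hb₂ : 0 ≤ b₂ := (norm_nonneg _).trans (h₂ 0)
  have hf := fermi_lower C σ M' hN hM' hε.le a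
  have hr : -(b * (‖Z‖ + b₂) * ‖a‖ ^ 2) ≤ (⟪a, C.iS (yuk 𝔤 σ 0 (fun v => f (v + φ)) (asm8 Z 0)) a⟫_ℂ).re := by
    have h1 := hy 0 (fun v => f (v + φ)) (asm8 Z 0)
    rw [norm_asm8_zero, abs_zero, add_zero, fderiv_comp_add_right] at h1
    have h2 : ‖C.iS (yuk 𝔤 σ 0 (fun v => f (v + φ)) (asm8 Z 0))‖ ≤ b * (‖Z‖ + b₂) :=
      h1.trans (by gcongr; exact h₂ _)
    refine neg_le_of_abs_le ((Complex.abs_re_le_norm _).trans ((norm_inner_le_norm _ _).trans ?_))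
    calc _ ≤ ‖a‖ * (b * (‖Z‖ + b₂) * ‖a‖) := by
          gcongr
          exact ContinuousLinearMap.le_of_opNorm_le _ h2 _
      _ = _ := by ring
  have hw : ‖wpot 𝔤 σ.G σ.s (asm8 Z 0)‖ ≤ ‖wpot 𝔤 σ.G σ.s (asm8 Z 0) + tens σ.s' (f φ)‖ + b₁ := by
    have : ‖tens σ.s' (f φ)‖ = ‖f φ‖ := by
      rw [← sq_eq_sq₀ (norm_nonneg _) (norm_nonneg _), ← real_inner_self_eq_norm_sq, inner_tens, σ.s'_unit,
        one_mul, real_inner_self_eq_norm_sq]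
    have h3 := norm_sub_le (wpot 𝔤 σ.G σ.s (asm8 Z 0) + tens σ.s' (f φ)) (tens σ.s' (f φ))
    rw [add_sub_cancel_right, this] at h3
    linarith [h₁ φ]
  have ha := arith hK0 hb hε hb₁ h0 (norm_nonneg _) hw hZ
  rw [yuk_split, Cl.iS, C.S_add, smul_add, add_apply, inner_add_right, Complex.add_re,
    norm_wd_sq, asm8_last, mass_asm8, proj_asm8, norm_asm8_zero, Ecoul_eq]
  rw [Cl.iS] at hf hr
  have key : TB ε (M.herm φ).eigenvalues / 2 - TF ε (M.herm φ).eigenvalues / 4 +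
      (8 * K)⁻¹ * min ε (ε ^ 2) / ((1 + ε) * (1 + b₁)) * ‖Z‖ ^ 2 -
      ((2 + 2 * b ^ 2 * K + b * √K) + 4 * (N : ℝ) ^ 2 + b) * (1 + ε⁻¹ ^ 2 + √b₁ + b₂) ≤
      1 / 2 * (LinearMap.trace ℝ (T 8 E) G - ‖G Z‖ ^ 2) + 1 / 2 * (‖ε • mat V8 Z - lift 8 (𝔤.br φ) Z‖ ^ 2 +
        ‖wpot 𝔤 σ.G σ.s (asm8 Z 0) + tens σ.s' (f φ)‖ ^ 2) - TF ε (M.herm φ).eigenvalues / 4 -
        b * (‖Z‖ + b₂) := by
    have q1 : 0 ≤ (2 + 2 * b ^ 2 * K + b * √K) * b₂ := by positivity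
    have q2 : 0 ≤ (N : ℝ) ^ 2 * (ε⁻¹ ^ 2 + √b₁ + b₂) := by positivity
    have q3 : 0 ≤ b * (1 + ε⁻¹ ^ 2 + √b₁) := by positivity
    nlinarith
  nlinarith [mul_le_mul_of_nonneg_right key (sq_nonneg ‖a‖)]

end Crest.Agent.R330.L1B

end
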