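import Crest.Agent.R330.IMat

/-! # Row 330, L1/Sp: spectral projectors of the rotation generators -/

set_option autoImplicit false
set_option linter.unusedSectionVars false

noncomputable section

open scoped Matrix
open Crest.MathPhysics.MatrixQM (GammaNine)

namespace Crest.Agent.R330.L1B

/-- A complete family of rank one Hermitian projectors, stable under complex conjugation. -/
structure Spec (n : ℕ) (τ : Type) [Fintype τ] [DecidableEq τ] where
  Q : τ → Matrix (Fin n) (Fin n) ℂ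
  bar : τ ≃ τ
  herm : ∀ t, (Q t)ᴴ = Q t
  mul : ∀ t t', Q t * Q t' = if t = t' then Q t else 0
  sum : ∑ t, Q t = 1
  cj : ∀ t, (Q t).map (starRingEnd ℂ) = Q (bar t)
  tr : ∀ t, (Q t).trace = 1

/-- `A` is diagonal with eigenvalues `μ`. -/
def Spec.Eig {n : ℕ} {τ : Type} [Fintype τ] [DecidableEq τ] (S : Spec n τ)
    (A : Matrix (Fin n) (Fin n) ℝ) (μ : τ → ℂ) : Prop :=
  ∀ t, S.Q t * A.map (fun r : ℝ => (r : ℂ)) = μ t • S.Q t

/-! ### fermions -/

section Fer

variable {n : Type} [Fintype n] [DecidableEq n]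

/-- The sign of a Boolean. -/
def sg (b : Bool) : ℝ := if b then 1 else -1

/-- Eigenprojector of an involution. -/
def pj (h : Matrix n n ℂ) (b : Bool) : Matrix n n ℂ := (1 / 2 : ℂ) • (1 + (sg b : ℂ) • h)

theorem pj_mul_h {h : Matrix n n ℂ} (hh : h * h = 1) (b : Bool) : pj h b * h = (sg b : ℂ) • pj h b := by
  cases b <;> simp [pj, sg, add_mul, hh, smul_add, add_comm]

theorem pj_mul {h : Matrix n n ℂ} (hh : h * h = 1) (b b' : Bool) :
    pj h b * pj h b' = if b = b' then pj h b else 0 := by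
  have e : pj h b * pj h b' = ((1 + (sg b : ℂ) * sg b') / 2) • pj h b := by
    conv_lhs => rw [pj.eq_1 h b']
    rw [Matrix.mul_smul, mul_add, mul_one, Matrix.mul_smul, pj_mul_h hh, smul_smul, smul_add, smul_smul,
      ← add_smul]
    congr 1
    ring
  rw [e]
  cases b <;> cases b' <;> simp [sg]

theorem pj_sum (h : Matrix n n ℂ) : ∑ b, pj h b = 1 := by
  simp only [Fintype.sum_bool, pj, sg]
  rw [← smul_add]
  simp only [if_true, Complex.ofReal_one, one_smul, Bool.false_eq_true, if_false, Complex.ofReal_neg, neg_smul]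
  rw [show (1 + h + (1 + -h)) = (2 : ℂ) • (1 : Matrix n n ℂ) by rw [two_smul]; abel, smul_smul]
  simp

theorem pj_herm {h : Matrix n n ℂ} (hh : hᴴ = h) (b : Bool) : (pj h b)ᴴ = pj h b := by
  simp [pj, Matrix.conjTranspose_smul, Matrix.conjTranspose_add, hh]

theorem pj_cj {h : Matrix n n ℂ} (hh : h.map (starRingEnd ℂ) = -h) (b : Bool) :
    (pj h b).map (starRingEnd ℂ) = pj h (!b) := by
  ext i j
  have := congrFun (congrFun hh i) j
  simp only [Matrix.map_apply, Matrix.neg_apply] at this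
  have e : sg (!b) = -sg b := by cases b <;> simp [sg]
  simp only [pj, Matrix.map_apply, Matrix.smul_apply, Matrix.add_apply, smul_eq_mul, map_mul, map_add, this, e,
    Complex.conj_ofReal, Matrix.one_apply, map_div₀, map_one, map_ofNat]
  split_ifs <;> simp

theorem pj_comm {g h : Matrix n n ℂ} (c : Commute g h) (b : Bool) : Commute g (pj h b) :=
  ((Commute.one_right g).add_right (c.smul_right _)).smul_right _

theorem pj_tr {A g h : Matrix n n ℂ} (c : Commute g A) (hg : g * g = 1) (hgh : g * h = -(h * g)) (b : Bool) :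
    (A * pj h b).trace = A.trace / 2 := by
  have e : (A * h).trace = 0 := by
    have : (A * h).trace = -(A * h).trace := by
      calc (A * h).trace = (g * (g * (A * h))).trace := by rw [← mul_assoc, hg, one_mul]
        _ = (g * (A * h) * g).trace := Matrix.trace_mul_comm _ _
        _ = (-(A * h * (g * g))).trace := by
          rw [← mul_assoc, c.eq, mul_assoc A, hgh]
          simp only [mul_assoc, mul_neg, neg_mul]
        _ = -(A * h).trace := by rw [hg, mul_one, Matrix.trace_neg]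
    linear_combination this / 2
  rw [pj, Matrix.mul_smul, mul_add, mul_one, Matrix.mul_smul, Matrix.trace_smul, Matrix.trace_add,
    Matrix.trace_smul, e]
  simp
  ring

end Fer

theorem ite_four {M : Type} [MulZeroClass M] (a b c d a' b' c' d' : Bool) (p q r s : M) :
    ((if a = a' then p else 0) * if b = b' then q else 0) * ((if c = c' then r else 0) * if d = d' then s else 0) =
      if (a, b, c, d) = (a', b', c', d') then p * q * (r * s) else 0 := by
  by_cases h1 : a = a' <;> by_cases h2 : b = b' <;> by_cases h3 : c = c' <;> by_cases h4 : d = d' <;>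
    simp [h1, h2, h3, h4]

/-- Joint diagonalisation of four commuting involutions. -/
theorem exists_spec_four (h g : Fin 4 → Matrix (Fin 16) (Fin 16) ℂ) (hh : ∀ k, h k * h k = 1)
    (hc : ∀ k l, Commute (h k) (h l)) (hH : ∀ k, (h k)ᴴ = h k)
    (hj : ∀ k, (h k).map (starRingEnd ℂ) = -h k) (hg : ∀ k, g k * g k = 1)
    (hgh : ∀ k, g k * h k = -(h k * g k)) (hgc : ∀ k l, k ≠ l → Commute (g k) (h l)) :
    ∃ S : Spec 16 (Bool × Bool × Bool × Bool), (∀ t, S.bar t = (!t.1, !t.2.1, !t.2.2.1, !t.2.2.2)) ∧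
      ∀ t, S.Q t * h 0 = (sg t.1 : ℂ) • S.Q t ∧ S.Q t * h 1 = (sg t.2.1 : ℂ) • S.Q t ∧
        S.Q t * h 2 = (sg t.2.2.1 : ℂ) • S.Q t ∧ S.Q t * h 3 = (sg t.2.2.2 : ℂ) • S.Q t := by
  have hp : ∀ k l b, Commute (h k) (pj (h l) b) := fun k l b => pj_comm (hc k l) b
  have c : ∀ k l b b', Commute (pj (h k) b) (pj (h l) b') := fun k l b b' => pj_comm (hp l k b).symm b'
  refine ⟨⟨fun t => pj (h 0) t.1 * pj (h 1) t.2.1 * (pj (h 2) t.2.2.1 * pj (h 3) t.2.2.2),
    Function.Involutive.toPerm (fun t => (!t.1, !t.2.1, !t.2.2.1, !t.2.2.2)) (fun t => by simp),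
    fun t => ?_, fun t t' => ?_, ?_, fun t => ?_, fun t => ?_⟩, fun t => rfl, fun t => ⟨?_, ?_, ?_, ?_⟩⟩
  · simp only [Matrix.conjTranspose_mul, pj_herm (hH _)]
    rw [(c 3 2 _ _).eq, (c 1 0 _ _).eq]
    exact (((c 2 0 _ _).mul_left (c 3 0 _ _)).mul_right ((c 2 1 _ _).mul_left (c 3 1 _ _))).eq
  · obtain ⟨a, b, d, e⟩ := t
    obtain ⟨a', b', d', e'⟩ := t'
    rw [(((c 2 0 _ _).mul_left (c 3 0 _ _)).mul_right ((c 2 1 _ _).mul_left (c 3 1 _ _))).mul_mul_mul_comm,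
      (c 1 0 _ _).mul_mul_mul_comm, (c 3 2 _ _).mul_mul_mul_comm]
    simp only [pj_mul (hh _)]
    exact ite_four _ _ _ _ _ _ _ _ _ _ _ _
  · simp only [Fintype.sum_prod_type, ← Finset.mul_sum, pj_sum, mul_one]
  · simp only [Matrix.map_mul, pj_cj (hj _)]
    rfl
  · have g3 : ∀ l b, (3 : Fin 4) ≠ l → Commute (g 3) (pj (h l) b) := fun l b hl => pj_comm (hgc _ _ hl) b
    have g2 : ∀ l b, (2 : Fin 4) ≠ l → Commute (g 2) (pj (h l) b) := fun l b hl => pj_comm (hgc _ _ hl) b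
    rw [← mul_assoc, pj_tr (((g3 0 _ (by decide)).mul_right (g3 1 _ (by decide))).mul_right (g3 2 _ (by decide)))
      (hg 3) (hgh 3), pj_tr ((g2 0 _ (by decide)).mul_right (g2 1 _ (by decide))) (hg 2) (hgh 2),
      pj_tr (pj_comm (hgc 1 0 (by decide)) _) (hg 1) (hgh 1), ← one_mul (pj (h 0) t.1),
      pj_tr (Commute.one_right _) (hg 0) (hgh 0)]
    simp
    norm_num
  · dsimp only
    rw [mul_assoc, ← ((hp 0 2 _).mul_right (hp 0 3 _)).eq, ← mul_assoc, mul_assoc (pj (h 0) _), ← (hp 0 1 _).eq,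
      ← mul_assoc (pj (h 0) _), pj_mul_h (hh 0), smul_mul_assoc, smul_mul_assoc]
  · dsimp only
    rw [mul_assoc, ← ((hp 1 2 _).mul_right (hp 1 3 _)).eq, ← mul_assoc, mul_assoc (pj (h 0) _),
      pj_mul_h (hh 1), mul_smul_comm, smul_mul_assoc]
  · dsimp only
    rw [mul_assoc, mul_assoc (pj (h 2) _), ← (hp 2 3 _).eq, ← mul_assoc (pj (h 2) _), pj_mul_h (hh 2),
      smul_mul_assoc, mul_smul_comm]
  · dsimp only
    rw [mul_assoc, mul_assoc (pj (h 2) _), pj_mul_h (hh 3), mul_smul_comm, mul_smul_comm]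

/-- Complexified gamma matrices. -/
def gc (G : GammaNine) (i : Fin 9) : Matrix (Fin 16) (Fin 16) ℂ := (G.γ i).map fun r : ℝ => (r : ℂ)

theorem cmap_mul {l m n : Type} [Fintype m] (A : Matrix l m ℝ) (B : Matrix m n ℝ) :
    (A * B).map (fun r : ℝ => (r : ℂ)) = A.map (fun r : ℝ => (r : ℂ)) * B.map fun r : ℝ => (r : ℂ) :=
  Matrix.map_mul (f := Complex.ofRealHom)

theorem gc_cl (G : GammaNine) (i j : Fin 9) : gc G i * gc G j + gc G j * gc G i = if i = j then 2 else 0 := by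
  have := congrArg (Complex.ofRealHom.mapMatrix (m := Fin 16)) (G.clifford i j)
  rw [map_add, map_mul, map_mul, apply_ite Complex.ofRealHom.mapMatrix, map_ofNat, map_zero] at this
  exact this

theorem gc_sq (G : GammaNine) (i : Fin 9) : gc G i * gc G i = 1 := by
  have := gc_cl G i i
  rw [if_pos rfl, ← two_smul ℂ, ← one_add_one_eq_two (R := Matrix _ _ ℂ), ← two_smul ℂ] at this
  exact smul_right_injective _ two_ne_zero this

theorem gc_anti (G : GammaNine) {i j : Fin 9} (h : i ≠ j) : gc G i * gc G j = -(gc G j * gc G i) := by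
  have := gc_cl G i j
  rw [if_neg h] at this
  exact eq_neg_of_add_eq_zero_left this

theorem gc_comm (G : GammaNine) {i j l : Fin 9} (h : i ≠ j) (h' : i ≠ l) : Commute (gc G i) (gc G j * gc G l) := by
  rw [Commute, SemiconjBy, ← mul_assoc, gc_anti G h, neg_mul, mul_assoc, gc_anti G h', mul_neg, neg_neg, mul_assoc]

theorem gc_herm (G : GammaNine) (i : Fin 9) : (gc G i)ᴴ = gc G i := by
  ext a b
  have := congrFun (congrFun (G.symm i) a) b
  simp only [Matrix.transpose_apply] at this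
  simp [gc, this]

theorem gc_cj (G : GammaNine) (i : Fin 9) : (gc G i).map (starRingEnd ℂ) = gc G i := by
  ext a b
  simp [gc]

/-- Joint spectral decomposition of `γ^8` and `σ(V₀)`. -/
theorem exists_specF (σ : Spn) : ∃ (S : Spec 16 (Bool × Bool × Bool × Bool))
    (lam χ : Bool × Bool × Bool × Bool → ℝ), (∀ t, lam (S.bar t) = -lam t) ∧ (∀ t, |χ t| = 1) ∧
    S.Eig (σ.G.γ 8) (fun t => χ t) ∧ S.Eig (sig σ.G V0) (fun t => Complex.I * lam t) ∧
    ∀ g : ℝ → ℝ, ∑ t, g (lam t) = 4 * g 0 + 2 * g 4 + 2 * g (-4) + 3 * g 2 + 3 * g (-2) + g 6 + g (-6) := by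
  let a : Fin 4 → Fin 9 := ![0, 2, 4, 6]
  let b : Fin 4 → Fin 9 := ![1, 3, 5, 7]
  have hab : ∀ k l, a k ≠ b l := by decide
  have haa : ∀ k l, k ≠ l → a k ≠ a l := by decide
  have hbb : ∀ k l, k ≠ l → b k ≠ b l := by decide
  obtain ⟨S, hb, hS⟩ := exists_spec_four (fun k => (-Complex.I) • (gc σ.G (a k) * gc σ.G (b k)))
    (fun k => gc σ.G (a k))
    (fun k => by
      rw [smul_mul_smul_comm, mul_assoc, ← mul_assoc (gc σ.G (b k)), gc_anti σ.G (hab k k).symm,
        neg_mul (gc σ.G (a k) * gc σ.G (b k)), mul_assoc, gc_sq, mul_one, mul_neg (gc σ.G (a k)), gc_sq]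
      simp)
    (fun k l => by
      by_cases hkl : k = l
      · rw [hkl]
      · exact (((gc_comm σ.G (haa k l hkl) (hab k l)).mul_left
          (gc_comm σ.G (hab l k).symm (hbb k l hkl))).smul_left _).smul_right _)
    (fun k => by
      rw [Matrix.conjTranspose_smul, Matrix.conjTranspose_mul, gc_herm, gc_herm, gc_anti σ.G (hab k k).symm]
      simp)
    (fun k => by
      have e : (gc σ.G (a k) * gc σ.G (b k)).map (starRingEnd ℂ) = gc σ.G (a k) * gc σ.G (b k) := by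
        rw [Matrix.map_mul, gc_cj, gc_cj]
      ext i j
      have := congrFun (congrFun e i) j
      simp only [Matrix.map_apply] at this
      simp [this])
    (fun k => gc_sq _ _)
    (fun k => by
      rw [mul_smul_comm, smul_mul_assoc, mul_assoc, gc_anti σ.G (hab k k).symm, mul_neg, smul_neg, neg_neg])
    (fun k l hkl => (gc_comm σ.G (haa k l hkl) (hab k l)).smul_right _)
  have hJ : ∀ t (k : Fin 4) (s : ℂ), S.Q t * ((-Complex.I) • (gc σ.G (a k) * gc σ.G (b k))) = s • S.Q t →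
      S.Q t * (gc σ.G (a k) * gc σ.G (b k)) = (Complex.I * s) • S.Q t := by
    intro t k s h
    rw [mul_smul, ← h, mul_smul_comm, smul_smul]
    simp
  have h0 : ∀ t, S.Q t * (gc σ.G 0 * gc σ.G 1) = (Complex.I * sg t.1) • S.Q t := fun t => hJ t 0 _ (hS t).1
  have h1 : ∀ t, S.Q t * (gc σ.G 2 * gc σ.G 3) = (Complex.I * sg t.2.1) • S.Q t := fun t => hJ t 1 _ (hS t).2.1
  have h2 : ∀ t, S.Q t * (gc σ.G 4 * gc σ.G 5) = (Complex.I * sg t.2.2.1) • S.Q t := fun t => hJ t 2 _ (hS t).2.2.1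
  have h3 : ∀ t, S.Q t * (gc σ.G 6 * gc σ.G 7) = (Complex.I * sg t.2.2.2) • S.Q t := fun t => hJ t 3 _ (hS t).2.2.2
  refine ⟨S, fun t => -sg t.1 - 2 * sg t.2.1 + sg t.2.2.1 + 2 * sg t.2.2.2,
    fun t => sg t.1 * sg t.2.1 * sg t.2.2.1 * sg t.2.2.2, fun t => ?_, fun t => ?_, fun t => ?_, fun t => ?_,
    fun g => ?_⟩
  · have e : ∀ c, sg (!c) = -sg c := fun c => by cases c <;> simp [sg]
    simp only [hb, e]
    ring
  · have e : ∀ c, |sg c| = 1 := fun c => by cases c <;> simp [sg]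
    simp [abs_mul, e]
  · rw [← σ.chir, cmap_mul, cmap_mul, cmap_mul, cmap_mul, cmap_mul, cmap_mul, cmap_mul]
    change S.Q t * (gc σ.G 0 * gc σ.G 1 * (gc σ.G 2 * gc σ.G 3) * (gc σ.G 4 * gc σ.G 5) * (gc σ.G 6 * gc σ.G 7)) = _
    rw [← mul_assoc (S.Q t), ← mul_assoc (S.Q t), ← mul_assoc (S.Q t)]
    simp only [h0, h1, h2, h3, smul_mul_assoc, smul_smul]
    congr 1
    push_cast
    linear_combination (sg t.1 * sg t.2.1 * sg t.2.2.1 * sg t.2.2.2 * (Complex.I ^ 2 - 1) : ℂ) * Complex.I_sq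
  · have e : (sig σ.G V0).map (fun r : ℝ => (r : ℂ)) = -(gc σ.G 0 * gc σ.G 1) - (2 : ℂ) • (gc σ.G 2 * gc σ.G 3) +
        gc σ.G 4 * gc σ.G 5 + (2 : ℂ) • (gc σ.G 6 * gc σ.G 7) := by
      rw [σ.sig_V0]
      simp only [gc, ← cmap_mul]
      ext i j
      simp
    rw [e, mul_add, mul_add, mul_sub, mul_neg, mul_smul_comm, mul_smul_comm, h0, h1, h2, h3, smul_smul, smul_smul,
      ← neg_smul, ← sub_smul, ← add_smul, ← add_smul]
    congr 1
    push_cast
    ring
  · simp only [Fintype.sum_prod_type, Fintype.sum_bool, sg]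
    norm_num
    ring

/-! ### bosons -/

/-- `V₀` on the first eight directions. -/
def V8 : Matrix (Fin 8) (Fin 8) ℝ := V0.submatrix Fin.castSucc Fin.castSucc

theorem V8_eq : V8 = !![0, -2, 0, 0, 0, 0, 0, 0; 2, 0, 0, 0, 0, 0, 0, 0; 0, 0, 0, -4, 0, 0, 0, 0;
    0, 0, 4, 0, 0, 0, 0, 0; 0, 0, 0, 0, 0, 2, 0, 0; 0, 0, 0, 0, -2, 0, 0, 0; 0, 0, 0, 0, 0, 0, 0, 4;
    0, 0, 0, 0, 0, 0, -4, 0] := by
  ext i j
  fin_cases i <;> fin_cases j <;> simp [V8, V0, pl]

/-- The sign of `V8`. -/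
def J8 : Matrix (Fin 8) (Fin 8) ℝ := !![0, -1, 0, 0, 0, 0, 0, 0; 1, 0, 0, 0, 0, 0, 0, 0; 0, 0, 0, -1, 0, 0, 0, 0;
    0, 0, 1, 0, 0, 0, 0, 0; 0, 0, 0, 0, 0, 1, 0, 0; 0, 0, 0, 0, -1, 0, 0, 0; 0, 0, 0, 0, 0, 0, 0, 1;
    0, 0, 0, 0, 0, 0, -1, 0]

/-- Eigenvectors. -/
def om : Fin 8 → Fin 8 → ℂ := !![1, -Complex.I, 0, 0, 0, 0, 0, 0; 1, Complex.I, 0, 0, 0, 0, 0, 0;
    0, 0, 1, -Complex.I, 0, 0, 0, 0; 0, 0, 1, Complex.I, 0, 0, 0, 0;
    0, 0, 0, 0, 1, Complex.I, 0, 0; 0, 0, 0, 0, 1, -Complex.I, 0, 0;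
    0, 0, 0, 0, 0, 0, 1, Complex.I; 0, 0, 0, 0, 0, 0, 1, -Complex.I]

theorem exists_spec_vec {n : ℕ} {τ : Type} [Fintype τ] [DecidableEq τ] (w : τ → Fin n → ℂ) (bar : τ ≃ τ)
    (h1 : ∀ t t', star (w t) ⬝ᵥ w t' = if t = t' then 2 else 0)
    (h2 : ∀ i j, ∑ t, w t i * star (w t j) = if i = j then 2 else 0) (h3 : ∀ t, star (w t) = w (bar t)) :
    ∃ S : Spec n τ, S.bar = bar ∧ ∀ (A : Matrix (Fin n) (Fin n) ℝ) (μ : τ → ℂ),
      (∀ t, star (w t) ᵥ* A.map (fun r : ℝ => (r : ℂ)) = μ t • star (w t)) → S.Eig A μ := by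
  refine ⟨⟨fun t => (1 / 2 : ℂ) • Matrix.vecMulVec (w t) (star (w t)), bar, fun t => ?_, fun t t' => ?_, ?_,
    fun t => ?_, fun t => ?_⟩, rfl, fun A μ h t => ?_⟩
  · simp [Matrix.conjTranspose_smul, Matrix.conjTranspose_vecMulVec]
  · rw [smul_mul_smul_comm, Matrix.vecMulVec_mul_vecMulVec, h1]
    split_ifs with h
    · subst h
      rw [Matrix.vecMulVec_smul, smul_smul]
      norm_num
    · simp
  · ext i j
    simp only [Matrix.sum_apply, Matrix.smul_apply, Matrix.vecMulVec_apply, smul_eq_mul, ← Finset.mul_sum,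
      Pi.star_apply, h2, Matrix.one_apply]
    split_ifs <;> simp
  · rw [← h3]
    ext i j
    simp [Matrix.vecMulVec_apply, map_ofNat]
  · rw [Matrix.trace_smul, Matrix.trace_vecMulVec, dotProduct_comm, h1, if_pos rfl]
    norm_num
  · dsimp only
    rw [smul_mul_assoc, Matrix.vecMulVec_mul, h, Matrix.vecMulVec_smul, smul_comm]

theorem om_orth (t t' : Fin 8) : star (om t) ⬝ᵥ om t' = if t = t' then 2 else 0 := by
  fin_cases t <;> fin_cases t' <;> simp [om, dotProduct, Fin.sum_univ_eight] <;> norm_num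

theorem om_compl (i j : Fin 8) : ∑ t, om t i * star (om t j) = if i = j then 2 else 0 := by
  fin_cases i <;> fin_cases j <;> simp [om, Fin.sum_univ_eight] <;> norm_num

theorem om_V8 (t : Fin 8) : star (om t) ᵥ* V8.map (fun r : ℝ => (r : ℂ)) =
    (Complex.I * ((![2, -2, 4, -4, 2, -2, 4, -4] : Fin 8 → ℝ) t : ℝ)) • star (om t) := by
  rw [V8_eq]
  ext i
  fin_cases t <;> fin_cases i <;> simp [om, Matrix.vecMul, dotProduct, Fin.sum_univ_eight] <;> ring_nf <;> simp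

theorem om_J8 (t : Fin 8) : star (om t) ᵥ* J8.map (fun r : ℝ => (r : ℂ)) =
    (Complex.I * ((![1, -1, 1, -1, 1, -1, 1, -1] : Fin 8 → ℝ) t : ℝ)) • star (om t) := by
  ext i
  fin_cases t <;> fin_cases i <;> simp [om, J8, Matrix.vecMul, dotProduct, Fin.sum_univ_eight]

/-- Spectral decomposition of `V8` and of its sign. -/
theorem exists_specB : ∃ (S : Spec 8 (Fin 8)) (lam s : Fin 8 → ℝ), (∀ t, lam (S.bar t) = -lam t) ∧
    (∀ t, (s t = 1 ∧ 2 ≤ lam t) ∨ (s t = -1 ∧ lam t ≤ -2)) ∧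
    S.Eig V8 (fun t => Complex.I * lam t) ∧ S.Eig J8 (fun t => Complex.I * s t) ∧
    ∀ g : ℝ → ℝ, ∑ t, g (lam t) = 2 * g 2 + 2 * g (-2) + 2 * g 4 + 2 * g (-4) := by
  have hi : Function.Involutive (![1, 0, 3, 2, 5, 4, 7, 6] : Fin 8 → Fin 8) := fun t => by fin_cases t <;> rfl
  obtain ⟨S, hb, hS⟩ := exists_spec_vec om hi.toPerm om_orth om_compl
    (fun t => by ext i; rw [Function.Involutive.coe_toPerm]; fin_cases t <;> fin_cases i <;> simp [om])
  refine ⟨S, ![2, -2, 4, -4, 2, -2, 4, -4], ![1, -1, 1, -1, 1, -1, 1, -1], fun t => ?_, fun t => ?_,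
    hS _ _ om_V8, hS _ _ om_J8, fun g => ?_⟩
  · rw [hb, Function.Involutive.coe_toPerm]
    fin_cases t <;> simp
  · fin_cases t <;> simp <;> norm_num
  · simp [Fin.sum_univ_eight]
    ring

theorem abs_J8_le (i j : Fin 8) : |J8 i j| ≤ 1 := by
  fin_cases i <;> fin_cases j <;> simp [J8]

end Crest.Agent.R330.L1B

end
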